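import Vale.Agent.P315.H855.Transfer

/-! P315, C-H3: the machine inequality of the accounting for one top, from the data of its
machines (uniform weights). -/

set_option autoImplicit false

open Finset

namespace Vale.Agent.P315.H855

open Vale.Agent.P315.Acc

variable {M n : ℕ}

section Desc

variable (A : H808.Along M n)

/-- (H1) over several levels. -/
theorem C_desc (hM : 0 < M) {j : ℕ} (J : ℕ) (hjJ : j ≤ J) : ∀ (i : ℕ) (b : ℤ), J ≤ n →
    i < M ^ (n - J) → A.C J i b ≤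
      ∑ m ∈ range (M ^ (J - j)), A.C j (i * M ^ (J - j) + m) (b - shU A j J i m) := by
  induction J, hjJ using Nat.le_induction with
  | base =>
    intro i b _ _
    simp [shU]
  | succ J hjJ ih =>
    intro i b hJ hi
    refine (A.H1 J i b (by omega) hi).trans ?_
    have hK : M ^ (J + 1 - j) = M * M ^ (J - j) := by
      rw [← pow_succ']; congr 1; omega
    have hp : 0 < M ^ (J - j) := Nat.pow_pos hM
    rw [hK, H808.sum_range_mul (fun r => A.C j (i * (M * M ^ (J - j)) + r)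
      (b - (shU A j (J + 1) i r : ℕ)))]
    refine sum_le_sum fun m' hm' => ?_
    have hm' := mem_range.1 hm'
    refine (ih _ _ (by omega) (H808.Along.child_lt (by omega) hi hm')).trans (le_of_eq ?_)
    refine sum_congr rfl fun m hm => ?_
    have hm := mem_range.1 hm
    have e1 : (i * M + m') * M ^ (J - j) + m = i * (M * M ^ (J - j)) + (m' * M ^ (J - j) + m) := by
      ring
    have e2 : shU A j (J + 1) i (m' * M ^ (J - j) + m) =
        shU A j J (i * M + m') m + A.sft J (i * M + m') := by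
      unfold shU
      rw [sum_Ico_succ_top hjJ, hK]
      congr 1
      · refine sum_congr rfl fun l _ => ?_
        rw [e1]
      · rw [← e1, mul_comm (i * M + m'), Nat.mul_add_div hp, Nat.div_eq_of_lt hm, add_zero]
    rw [e1, e2]
    congr 1
    push_cast
    ring

end Desc

variable [Nonempty (Fin (M ^ n))] {S : Sys (Fin (M ^ n))}

/-- The drops of the machine value in the blocks add up to at most `1 + 2 τ`. -/
theorem sum_m_le {X : Type} [Fintype X] [Nonempty X] {S : Sys X} (R : Mach S) {o s a : ℕ}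
    (hs : s ≤ S.smax) (ha : a < S.na s) (x : X) (nb : ℕ) :
    ∑ k ∈ range nb, R.m o s a x k ≤ 1 + 2 * R.tau s := by
  have h4 : ∑ k ∈ range nb, R.m o s a x k =
      R.om s a x (S.b0 o s 0) - R.om s a x (S.b0 o s nb) :=
    Finset.sum_range_sub' (fun k => R.om s a x (S.b0 o s k)) nb
  rw [h4]
  have h1 := R.om_le s a x (S.b0 o s 0) hs ha
  have h2 := R.le_om s a x (S.b0 o s nb) hs ha
  have h3 := S.nonneg ((a + 1) * 2 ^ s) x (S.b0 o s nb)
  have h5 : S.V s a x (S.b0 o s 0) ≤ 1 := by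
    unfold Sys.V Sys.av
    refine (avg_mono S.hw x (g := fun _ => 1) fun y _ => S.le_one _ _ _).trans ?_
    exact (avg_const S.hw x (h := fun _ => (1 : ℝ)) fun _ _ => rfl).le
  linarith

open H782 (val xx Greedy harm err1)
open H519 (blk win Lst)

open Classical in
/-- **The machine inequality of one top** in union form, uniform weights, from the data of the
machines: rows `I`, units `em`, costs `D`, rounded path `p`, rounding errors `r`, caps `cap l`,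
stored paths `pk l`. -/
theorem h3b_top (A : H808.Along M n) (hM : 0 < M) (R : Mach S) {lo H : ℤ} {w0 : ℝ}
    (hw0 : 0 < w0) (hwc : ∀ r, A.w r = w0) (hw : ∀ x, S.w x = A.w x)
    (hq : ∀ j x, S.q j x = (x : ℕ) / M ^ j)
    (he : ∀ j x b, j ≤ n → S.e j x b = A.e lo j x b)
    {ε : ℝ} (hε : 0 ≤ ε)
    (low : ∀ j i b, j ≤ n → i < M ^ (n - j) → A.DE j i - ε * A.W j i ≤ A.C j i b)
    {s a o : ℕ} (hss : s ≤ S.smax) (ha : a < S.na s)
    (hsa : (a + 1) * 2 ^ s ≤ n) (hlen : 2 ^ s ≤ S.D s) (x : Fin (M ^ n))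
    {off : ℕ} {j0 : ℤ}
    (hj0 : j0 * S.D s = lo - A.S ((a + 1) * 2 ^ s) x + H + o + off)
    {C7 : ℝ} {good : ℕ → ℕ → Fin (M ^ n) → Prop}
    -- classes
    (Ls : Finset ℕ) {act : ℕ → Prop} {actM cl : ℕ → ℕ → Prop} [∀ l, DecidablePred (actM l)]
    {cN cap cmin th : ℕ → ℝ} {Cc : ℝ}
    (hdisj : ∀ l ∈ Ls, ∀ l' ∈ Ls, ∀ k, k < S.nb s → cl l k → cl l' k → l = l')
    (hact : ∀ k, k < S.nb s → (act k ↔ ∃ l ∈ Ls, cl l k))
    (hcls : ∀ l ∈ Ls, ∀ k, k < S.nb s → ∀ j : ℕ, (j : ℤ) = k + j0 → (actM l j ↔ cl l k))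
    (hst : ∀ l ∈ Ls, ∀ k, k < S.nb s → cl l k → (off : ℤ) ≤ (k + j0) * S.D s)
    (hcN : ∀ l ∈ Ls, ∀ k, k < S.nb s → cl l k → C7 * R.m o s a x k ≤ cN l)
    (hcmin : ∀ l ∈ Ls, 0 < cmin l)
    (hc : ∀ l ∈ Ls, ∀ k, k < S.nb s → cl l k → cmin l ≤ R.m o s a x k)
    (hC : ∀ l ∈ Ls, ∀ k, k < S.nb s → cl l k →
      cap l / ((M ^ (a * 2 ^ s) : ℕ) * w0) ≤ Cc * R.m o s a x k)
    -- machine
    {I E : Type} [Fintype I] [Fintype E] [DecidableEq E] [Nonempty I] [Nonempty E]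
    {em : Fin (M ^ 2 ^ s) → I} (hem : Function.Injective em) {PP : Set (I → E)}
    {D : ℕ → I → E → ℝ} (hD : ∀ t i e, D (t + 1) i e ≤ D t i e)
    {p : I → E} (hp : p ∈ PP) {r : I → ℝ} (hr0 : ∀ i, 0 ≤ r i) {rb d : ℝ} (hd : 0 ≤ d)
    (hrb : ∑ i, r i ≤ ((M ^ 2 ^ s : ℕ) : ℝ) * rb)
    (hr : ∀ t (u : Fin (M ^ 2 ^ s)), |D t (em u) (p (em u)) -
      ownU A H (a * 2 ^ s) ((a + 1) * 2 ^ s) ((x : ℕ) / M ^ ((a + 1) * 2 ^ s)) t u| ≤ r (em u))
    (hr' : ∀ t i, (∀ u, em u ≠ i) → D t i (p i) ≤ r i)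
    (hcap0 : ∀ l ∈ Ls, 0 < cap l)
    (hcap : ∀ l ∈ Ls, ∀ u : Fin (M ^ 2 ^ s),
      ((M ^ (a * 2 ^ s) : ℕ) * w0) * (cN l + ε) + 2 * r (em u) ≤ cap l)
    {Sc T : ℕ} (hSc : 0 < Sc) (hT : 0 < T) {pk : ℕ → ℕ → ℕ → ℕ → I → E}
    (hpk : ∀ l ∈ Ls, ∀ j1 t, blk off (S.D s) t < ((S.nb s : ℤ) + j0).toNat →
      win off (S.D s) (2 ^ s) t → actM l (blk off (S.D s) t) → actM l j1 → j0.toNat ≤ j1 →
      j1 ≤ blk off (S.D s) t → off ≤ blk off (S.D s) t * S.D s →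
      Greedy (harm Sc) (Lst D (cap l) off (S.D s) (2 ^ s) (actM l) j1 t) PP T (pk l j1 t))
    (cert : ∀ l ∈ Ls, ∀ j1 t, blk off (S.D s) t < ((S.nb s : ℤ) + j0).toNat →
      win off (S.D s) (2 ^ s) t → actM l (blk off (S.D s) t) → actM l j1 → j0.toNat ≤ j1 →
      j1 ≤ blk off (S.D s) t → off ≤ blk off (S.D s) t * S.D s →
      ownR A H ((a + 1) * 2 ^ s) ((x : ℕ) / M ^ ((a + 1) * 2 ^ s)) t ≤
        val (D (t + 2 ^ s)) (xx (pk l j1 t) T) + ((M ^ 2 ^ s : ℕ) : ℝ) * d)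
    (hth0 : ∀ l ∈ Ls, 0 < th l) (hth1 : ∀ l ∈ Ls, th l ≤ 1 / 2)
    (A₀ : Finset ℕ) (hA₀ : ∀ k ∈ A₀, k < S.nb s ∧ act k) :
    ∑ k ∈ A₀, R.lhs C7 good o s a x k ≤
      2 * ∑ k ∈ A₀, ∑ i ∈ range (S.D s), S.G s a x (S.b0 o s k + i) +
      2 ^ s * ((Fintype.card I : ℝ) / ((M ^ 2 ^ s : ℕ) : ℝ) *
          (Cc * Real.log (Fintype.card E : ℝ))) *
        (∑ k ∈ (range (S.nb s)).filter (fun k => k ∉ A₀), ind (act k) * R.m o s a x k) +
      ∑ l ∈ Ls, (2 ^ s * ((Fintype.card I : ℝ) / ((M ^ 2 ^ s : ℕ) : ℝ) *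
          (cap l / ((M ^ (a * 2 ^ s) : ℕ) * w0) * Real.log (Fintype.card E : ℝ))) +
        (1 + 2 * R.tau s) / cmin l * (S.D s * (2 * ε + (4 * rb + 2 * d) /
            ((M ^ (a * 2 ^ s) : ℕ) * w0) +
          (Fintype.card I : ℝ) / ((M ^ 2 ^ s : ℕ) : ℝ) *
            (cap l / ((M ^ (a * 2 ^ s) : ℕ) * w0) *
              (4 * th l + err1 (Fintype.card E) T (T / Sc) / th l))))) := by
  have hK : 0 < M ^ 2 ^ s := Nat.pow_pos hM
  have hne : Nonempty (Fin (M ^ 2 ^ s)) := ⟨⟨0, hK⟩⟩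
  have hJe : (a + 1) * 2 ^ s = a * 2 ^ s + 2 ^ s := by ring
  have hjJ : a * 2 ^ s ≤ (a + 1) * 2 ^ s := by rw [hJe]; exact Nat.le_add_right _ _
  have hJj : (a + 1) * 2 ^ s - a * 2 ^ s = 2 ^ s := by rw [hJe, Nat.add_sub_cancel_left]
  have hi : (x : ℕ) / M ^ ((a + 1) * 2 ^ s) < M ^ (n - (a + 1) * 2 ^ s) := quot_lt' hM hsa x
  have hju : a * 2 ^ s ≤ n := hjJ.trans hsa
  have hw' : (0 : ℝ) < (M ^ (a * 2 ^ s) : ℕ) * w0 :=
    mul_pos (by exact_mod_cast Nat.pow_pos hM) hw0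
  have hlog : 0 ≤ Real.log (Fintype.card E : ℝ) := by
    apply Real.log_nonneg
    exact_mod_cast Fintype.card_pos
  have hE : (0 : ℝ) < (Fintype.card E : ℝ) := by exact_mod_cast Fintype.card_pos
  have herr1 : 0 ≤ err1 (Fintype.card E) T (T / Sc) := by
    unfold err1
    have h1 : 0 ≤ Real.log (((T : ℝ) + (Fintype.card E : ℝ)) / (Fintype.card E : ℝ)) := by
      apply Real.log_nonneg
      rw [one_le_div hE]
      have : (0 : ℝ) ≤ T := by positivity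
      linarith
    positivity
  have hWu : ∀ j v, A.W j v = (M ^ j : ℕ) * w0 := by
    intro j v
    unfold H808.Along.W H808.bs
    simp only [hwc]
    rw [sum_const, card_range, nsmul_eq_mul]
  have hvl : ∀ m : Fin (M ^ 2 ^ s),
      (x : ℕ) / M ^ ((a + 1) * 2 ^ s) * M ^ 2 ^ s + m < M ^ (n - a * 2 ^ s) := by
    intro m
    have e1 : n - a * 2 ^ s = (n - (a + 1) * 2 ^ s) + 2 ^ s := by omega
    rw [e1, pow_add]
    have hm := m.isLt
    calc (x : ℕ) / M ^ ((a + 1) * 2 ^ s) * M ^ 2 ^ s + m <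
          (x : ℕ) / M ^ ((a + 1) * 2 ^ s) * M ^ 2 ^ s + M ^ 2 ^ s := by omega
      _ = ((x : ℕ) / M ^ ((a + 1) * 2 ^ s) + 1) * M ^ 2 ^ s := by ring
      _ ≤ M ^ (n - (a + 1) * 2 ^ s) * M ^ 2 ^ s := Nat.mul_le_mul_right _ hi
  have hrb0 : 0 ≤ rb := by
    have h1 : 0 ≤ ((M ^ 2 ^ s : ℕ) : ℝ) * rb :=
      (Finset.sum_nonneg fun u _ => hr0 u).trans hrb
    exact nonneg_of_mul_nonneg_right h1 (by exact_mod_cast hK)
  have hDE : ∑ m : Fin (M ^ 2 ^ s), A.DE (a * 2 ^ s)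
      ((x : ℕ) / M ^ ((a + 1) * 2 ^ s) * M ^ 2 ^ s + m) =
      A.DE ((a + 1) * 2 ^ s) ((x : ℕ) / M ^ ((a + 1) * 2 ^ s)) := by
    have := bs_desc (M := M) (fun r => A.d r + A.er r) hjJ ((x : ℕ) / M ^ ((a + 1) * 2 ^ s))
    rw [hJj] at this
    exact this.symm
  have hWW : ((M ^ 2 ^ s : ℕ) : ℝ) * ((M ^ (a * 2 ^ s) : ℕ) * w0) =
      A.W ((a + 1) * 2 ^ s) ((x : ℕ) / M ^ ((a + 1) * 2 ^ s)) := by
    rw [hWu, ← mul_assoc]
    congr 1
    have : M ^ ((a + 1) * 2 ^ s) = M ^ 2 ^ s * M ^ (a * 2 ^ s) := by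
      rw [← pow_add]; congr 1; ring
    rw [this]; push_cast; ring
  have hratio : 0 ≤ (Fintype.card I : ℝ) / ((M ^ 2 ^ s : ℕ) : ℝ) := by positivity
  have hreg := union_region A hM R hw0 hwc hw hq he (s := s) (a := a) (o := o) hsa
    (lt_of_lt_of_le (Nat.pow_pos (by norm_num)) hlen) x (H := H) (off := off) (j0 := j0) hj0
    (C7 := C7) (good := good) Ls (act := act) (actM := actM) (cl := cl) (cN := cN)
    (cQ := fun l => (Fintype.card I : ℝ) / ((M ^ 2 ^ s : ℕ) : ℝ) *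
          (cap l / ((M ^ (a * 2 ^ s) : ℕ) * w0) * Real.log (Fintype.card E : ℝ)))
    (cmin := cmin)
    (err := fun l => S.D s * (2 * ε + (4 * rb + 2 * d) / ((M ^ (a * 2 ^ s) : ℕ) * w0) +
          (Fintype.card I : ℝ) / ((M ^ 2 ^ s : ℕ) : ℝ) *
            (cap l / ((M ^ (a * 2 ^ s) : ℕ) * w0) *
              (4 * th l + err1 (Fintype.card E) T (T / Sc) / th l))))
    (C := (Fintype.card I : ℝ) / ((M ^ 2 ^ s : ℕ) : ℝ) *
          (Cc * Real.log (Fintype.card E : ℝ)))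
    (B := 1 + 2 * R.tau s)
    hdisj hact hcls hst hcN hcmin hc
    (fun l hl k hk hck => by
      have h1 := mul_le_mul_of_nonneg_right (hC l hl k hk hck) hlog
      have h2 := mul_le_mul_of_nonneg_left h1 hratio
      refine h2.trans (le_of_eq ?_)
      ring)
    (fun l hl => by
      have := (hcap0 l hl).le
      positivity)
    (fun l hl => by
      have := (hcap0 l hl).le
      have := (hth0 l hl).le
      positivity)
    (sum_m_le R hss ha x _)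
    (fun l hl A' h1 h2 h3 h4 => by
      have hmain := H132.region_h3b (Un := Fin (M ^ 2 ^ s)) (A := A') hem (PP := PP) hD
        (cU := fun t u => ownU A H (a * 2 ^ s) ((a + 1) * 2 ^ s)
          ((x : ℕ) / M ^ ((a + 1) * 2 ^ s)) t u)
        (fun u t t' htt => by
          show A.C _ _ _ ≤ A.C _ _ _
          have hv := hvl u
          refine A.anti (a * 2 ^ s) _ hju (by rw [hJj]; exact hv) ?_
          have : (t : ℤ) ≤ t' := by exact_mod_cast htt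
          linarith)
        (cR := fun t => ownR A H ((a + 1) * 2 ^ s) ((x : ℕ) / M ^ ((a + 1) * 2 ^ s)) t)
        (DU := fun m : Fin (M ^ 2 ^ s) => A.DE (a * 2 ^ s)
          ((x : ℕ) / M ^ ((a + 1) * 2 ^ s) * M ^ 2 ^ s + m))
        (w := (M ^ (a * 2 ^ s) : ℕ) * w0) hw' (ε := ε) (d := d) (rb := rb) (r := r) hε hr0 hd
        (by rw [Fintype.card_fin]; exact hrb)
        (fun t u => by
          have h5 := low (a * 2 ^ s) _ ((t : ℤ) - H - shU A (a * 2 ^ s) ((a + 1) * 2 ^ s)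
            ((x : ℕ) / M ^ ((a + 1) * 2 ^ s)) u) hju (hvl u)
          rw [hWu] at h5
          show _ ≤ A.C _ _ _
          rw [hJj]
          exact h5)
        (fun t => by
          have h5 := low ((a + 1) * 2 ^ s) _ ((t : ℤ) - H) hsa hi
          rw [Fintype.card_fin, hDE, hWW]
          exact h5)
        (fun t => by
          have h5 := C_desc A hM ((a + 1) * 2 ^ s) hjJ _ ((t : ℤ) - H) hsa hi
          rw [hJj] at h5
          show A.C _ _ _ ≤ _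
          refine h5.trans (le_of_eq ?_)
          rw [Finset.sum_range]
          refine Finset.sum_congr rfl fun m _ => ?_
          show _ = A.C _ _ _
          rw [hJj])
        (p := p) hp hr hr' (cap := cap l) (cN := cN l) (hcap0 l hl) (hcap l hl) (o := off)
        (len := S.D s) (h := 2 ^ s) (Nat.pow_pos (by norm_num)) hlen (act := actM l)
        (jc := j0.toNat) h1 h2 (N := ((S.nb s : ℤ) + j0).toNat) h3 (S := Sc) (T := T) hSc hT
        (pk := pk l)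
        (fun j1 t g1 g2 g3 g4 g5 g6 => hpk l hl j1 t g1 g2 (h1 _ g3) g4 g5 g6 (h3 _ g3))
        (fun j1 t g1 g2 g3 g4 g5 g6 => by
          rw [Fintype.card_fin]
          exact cert l hl j1 t g1 g2 (h1 _ g3) g4 g5 g6 (h3 _ g3))
        (hth0 l hl) (hth1 l hl)
      rw [Fintype.card_fin] at hmain
      convert hmain)
    A₀ hA₀
  exact hreg

open Classical in
/-- **One class** of one top: `h3b_top` for a single class, in the form used by the sum over the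
classes. -/
theorem h3b_class (A : H808.Along M n) (hM : 0 < M) (R : Mach S) {lo H : ℤ} {w0 : ℝ}
    (hw0 : 0 < w0) (hwc : ∀ r, A.w r = w0) (hw : ∀ x, S.w x = A.w x)
    (hq : ∀ j x, S.q j x = (x : ℕ) / M ^ j)
    (he : ∀ j x b, j ≤ n → S.e j x b = A.e lo j x b)
    {ε : ℝ} (hε : 0 ≤ ε)
    (low : ∀ j i b, j ≤ n → i < M ^ (n - j) → A.DE j i - ε * A.W j i ≤ A.C j i b)
    {s a o : ℕ} (hss : s ≤ S.smax) (ha : a < S.na s)
    (hsa : (a + 1) * 2 ^ s ≤ n) (hlen : 2 ^ s ≤ S.D s) (x : Fin (M ^ n))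
    {off : ℕ} {j0 : ℤ}
    (hj0 : j0 * S.D s = lo - A.S ((a + 1) * 2 ^ s) x + H + o + off)
    {C7 : ℝ} {good : ℕ → ℕ → Fin (M ^ n) → Prop}
    {actM cl : ℕ → Prop} [DecidablePred actM] {cN cap cmin th Cc : ℝ}
    (hcls : ∀ k, k < S.nb s → ∀ j : ℕ, (j : ℤ) = k + j0 → (actM j ↔ cl k))
    (hst : ∀ k, k < S.nb s → cl k → (off : ℤ) ≤ (k + j0) * S.D s)
    (hcN : ∀ k, k < S.nb s → cl k → C7 * R.m o s a x k ≤ cN)
    (hcmin : 0 < cmin)
    (hc : ∀ k, k < S.nb s → cl k → cmin ≤ R.m o s a x k)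
    (hC : ∀ k, k < S.nb s → cl k → cap / ((M ^ (a * 2 ^ s) : ℕ) * w0) ≤ Cc * R.m o s a x k)
    {I E : Type} [Fintype I] [Fintype E] [DecidableEq E] [Nonempty I] [Nonempty E]
    {em : Fin (M ^ 2 ^ s) → I} (hem : Function.Injective em) {PP : Set (I → E)}
    {D : ℕ → I → E → ℝ} (hD : ∀ t i e, D (t + 1) i e ≤ D t i e)
    {p : I → E} (hp : p ∈ PP) {r : I → ℝ} (hr0 : ∀ i, 0 ≤ r i) {rb d : ℝ} (hd : 0 ≤ d)
    (hrb : ∑ i, r i ≤ ((M ^ 2 ^ s : ℕ) : ℝ) * rb)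
    (hr : ∀ t (u : Fin (M ^ 2 ^ s)), |D t (em u) (p (em u)) -
      ownU A H (a * 2 ^ s) ((a + 1) * 2 ^ s) ((x : ℕ) / M ^ ((a + 1) * 2 ^ s)) t u| ≤ r (em u))
    (hr' : ∀ t i, (∀ u, em u ≠ i) → D t i (p i) ≤ r i)
    (hcap0 : 0 < cap)
    (hcap : ∀ u : Fin (M ^ 2 ^ s),
      ((M ^ (a * 2 ^ s) : ℕ) * w0) * (cN + ε) + 2 * r (em u) ≤ cap)
    {Sc T : ℕ} (hSc : 0 < Sc) (hT : 0 < T) {pk : ℕ → ℕ → ℕ → I → E}
    (hpk : ∀ j1 t, blk off (S.D s) t < ((S.nb s : ℤ) + j0).toNat →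
      win off (S.D s) (2 ^ s) t → actM (blk off (S.D s) t) → actM j1 → j0.toNat ≤ j1 →
      j1 ≤ blk off (S.D s) t → off ≤ blk off (S.D s) t * S.D s →
      Greedy (harm Sc) (Lst D cap off (S.D s) (2 ^ s) actM j1 t) PP T (pk j1 t))
    (cert : ∀ j1 t, blk off (S.D s) t < ((S.nb s : ℤ) + j0).toNat →
      win off (S.D s) (2 ^ s) t → actM (blk off (S.D s) t) → actM j1 → j0.toNat ≤ j1 →
      j1 ≤ blk off (S.D s) t → off ≤ blk off (S.D s) t * S.D s →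
      ownR A H ((a + 1) * 2 ^ s) ((x : ℕ) / M ^ ((a + 1) * 2 ^ s)) t ≤
        val (D (t + 2 ^ s)) (xx (pk j1 t) T) + ((M ^ 2 ^ s : ℕ) : ℝ) * d)
    (hth0 : 0 < th) (hth1 : th ≤ 1 / 2)
    (A₀ : Finset ℕ) (hA₀ : ∀ k ∈ A₀, k < S.nb s ∧ cl k) :
    ∑ k ∈ A₀, R.lhs C7 good o s a x k ≤
      2 * ∑ k ∈ A₀, ∑ i ∈ range (S.D s), S.G s a x (S.b0 o s k + i) +
      2 ^ s * ((Fintype.card I : ℝ) / ((M ^ 2 ^ s : ℕ) : ℝ) *
          (Cc * Real.log (Fintype.card E : ℝ))) *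
        (∑ k ∈ (range (S.nb s)).filter (fun k => k ∉ A₀), ind (cl k) * R.m o s a x k) +
      (2 ^ s * ((Fintype.card I : ℝ) / ((M ^ 2 ^ s : ℕ) : ℝ) *
          (cap / ((M ^ (a * 2 ^ s) : ℕ) * w0) * Real.log (Fintype.card E : ℝ))) +
        (1 + 2 * R.tau s) / cmin * (S.D s * (2 * ε + (4 * rb + 2 * d) /
            ((M ^ (a * 2 ^ s) : ℕ) * w0) +
          (Fintype.card I : ℝ) / ((M ^ 2 ^ s : ℕ) : ℝ) *
            (cap / ((M ^ (a * 2 ^ s) : ℕ) * w0) *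
              (4 * th + err1 (Fintype.card E) T (T / Sc) / th))))) := by
  have h := h3b_top A hM R hw0 hwc hw hq he hε low (o := o) hss ha hsa hlen x hj0 (C7 := C7)
    (good := good) {0} (act := cl) (actM := fun _ => actM) (cl := fun _ => cl)
    (cN := fun _ => cN) (cap := fun _ => cap) (cmin := fun _ => cmin) (th := fun _ => th)
    (Cc := Cc)
    (fun l hl l' hl' k _ _ _ => by
      rw [Finset.mem_singleton.1 hl, Finset.mem_singleton.1 hl'])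
    (fun k _ => ⟨fun h => ⟨0, Finset.mem_singleton_self 0, h⟩, fun ⟨_, _, h⟩ => h⟩)
    (fun _ _ => hcls) (fun _ _ => hst) (fun _ _ => hcN) (fun _ _ => hcmin) (fun _ _ => hc)
    (fun _ _ => hC) hem hD hp hr0 hd hrb hr hr' (fun _ _ => hcap0) (fun _ _ => hcap) hSc hT
    (pk := fun _ => pk) (fun _ _ => hpk) (fun _ _ => cert) (fun _ _ => hth0) (fun _ _ => hth1)
    A₀ hA₀
  rw [Finset.sum_singleton] at h
  exact h

end Vale.Agent.P315.H855
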