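import Vale.Agent.P315.H132.Region
import Vale.Agent.P315.H808.Along
import Vale.Agent.P315.H679.AccDefs

/-! P315, C-H3: from the inequality of the machines of one region (own rounds, one class) to the
machine inequality of the accounting (static index, union of all classes). -/

set_option autoImplicit false

open Finset

namespace Vale.Agent.P315.H855

open Vale.Agent.P315.Acc

/-! ### From own blocks to static blocks -/

section Static

open Classical in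
/-- The static block `k` is the block number `k + j0` of the machine and starts at its own time
`(k + j0) len - off`. `lhsO` = left side of the block that starts at an own time, `GO` = gain at an
own time, `Q` = price of a restart, `err` = error of a block. -/
theorem static_of_own {lhsO GO : ℕ → ℝ} {off len nb : ℕ} {j0 : ℤ} (hlen : 0 < len)
    {act cl : ℕ → Prop} {Q err : ℝ} (hQ : 0 ≤ Q)
    (hact : ∀ k, k < nb → ∀ j : ℕ, (j : ℤ) = k + j0 → (act j ↔ cl k))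
    (hst : ∀ k, k < nb → cl k → (off : ℤ) ≤ (k + j0) * len)
    (hreg : ∀ A : ℕ → Prop, (∀ j, A j → act j) → (∀ j, A j → j0.toNat ≤ j) →
      (∀ j, A j → off ≤ j * len) → (∀ j, A j → j < ((nb : ℤ) + j0).toNat) →
      ∑ j ∈ (range ((nb : ℤ) + j0).toNat).filter A, lhsO (j * len - off) ≤
        2 * ∑ j ∈ (range ((nb : ℤ) + j0).toNat).filter A, ∑ i ∈ range len, GO (j * len - off + i)
        + (1 + (((range ((nb : ℤ) + j0).toNat).filter
            fun j => (act j ∧ j0.toNat ≤ j) ∧ ¬ A j).card : ℝ)) * Q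
        + (((range ((nb : ℤ) + j0).toNat).filter A).card : ℝ) * err)
    (A : Finset ℕ) (hA : ∀ k ∈ A, k < nb ∧ cl k) :
    ∑ k ∈ A, lhsO (((k : ℤ) + j0) * len - off).toNat ≤
      2 * ∑ k ∈ A, ∑ i ∈ range len, GO ((((k : ℤ) + j0) * len - off).toNat + i)
      + (1 + (((range nb).filter fun k => k ∉ A ∧ cl k).card : ℝ)) * Q + (A.card : ℝ) * err := by
  have hlenZ : (0 : ℤ) < len := by exact_mod_cast hlen
  have hk0 : ∀ k, k < nb → cl k → 0 ≤ (k : ℤ) + j0 := by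
    intro k hk hc
    have h1 := hst k hk hc
    by_contra hneg
    have h2 : (k : ℤ) + j0 ≤ -1 := by omega
    have h3 : ((k : ℤ) + j0) * len ≤ -1 * len := mul_le_mul_of_nonneg_right h2 hlenZ.le
    have h4 : (0 : ℤ) ≤ off := by positivity
    omega
  obtain ⟨A', hA'⟩ : ∃ A' : ℕ → Prop, ∀ j, A' j ↔ ∃ k, k ∈ A ∧ (j : ℤ) = k + j0 :=
    ⟨_, fun _ => Iff.rfl⟩
  set N : ℕ := ((nb : ℤ) + j0).toNat with hN
  have hmain := hreg A' (by
      intro j hj
      obtain ⟨k, hk, e⟩ := (hA' j).1 hj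
      exact (hact k (hA k hk).1 j e).2 (hA k hk).2) (by
      intro j hj
      obtain ⟨k, hk, e⟩ := (hA' j).1 hj
      omega) (by
      intro j hj
      obtain ⟨k, hk, e⟩ := (hA' j).1 hj
      have h1 := hst k (hA k hk).1 (hA k hk).2
      rw [← e] at h1
      exact_mod_cast h1) (by
      intro j hj
      obtain ⟨k, hk, e⟩ := (hA' j).1 hj
      have := (hA k hk).1
      omega)
  have hinj : Set.InjOn (fun k : ℕ => ((k : ℤ) + j0).toNat) (A : Set ℕ) := by
    intro k hk k' hk' e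
    have h1 := hk0 k (hA k hk).1 (hA k hk).2
    have h2 := hk0 k' (hA k' hk').1 (hA k' hk').2
    simp only at e
    omega
  have hfA : (range N).filter A' = A.image (fun k : ℕ => ((k : ℤ) + j0).toNat) := by
    ext j
    rw [mem_filter, mem_range, mem_image, hA']
    constructor
    · rintro ⟨_, k, hk, e⟩
      exact ⟨k, hk, by omega⟩
    · rintro ⟨k, hk, e⟩
      have h1 := hk0 k (hA k hk).1 (hA k hk).2
      have h2 := (hA k hk).1
      exact ⟨by omega, k, hk, by omega⟩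
  have hre : ∀ f : ℕ → ℝ, ∑ j ∈ (range N).filter A', f j =
      ∑ k ∈ A, f ((k : ℤ) + j0).toNat := by
    intro f
    rw [hfA, sum_image hinj]
  have hcardA : ((range N).filter A').card = A.card := by
    rw [hfA, card_image_of_injOn hinj]
  have hcardU : ((range N).filter fun j => (act j ∧ j0.toNat ≤ j) ∧ ¬ A' j).card ≤
      ((range nb).filter fun k => k ∉ A ∧ cl k).card := by
    have hsub : ((range N).filter fun j => (act j ∧ j0.toNat ≤ j) ∧ ¬ A' j) ⊆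
        ((range nb).filter fun k => k ∉ A ∧ cl k).image (fun k : ℕ => ((k : ℤ) + j0).toNat) := by
      intro j hj
      obtain ⟨h1, ⟨h2, h3⟩, h4⟩ := mem_filter.1 hj
      have h1 := mem_range.1 h1
      obtain ⟨k, hk⟩ : ∃ k : ℕ, (j : ℤ) = (k : ℤ) + j0 := ⟨((j : ℤ) - j0).toNat, by omega⟩
      have hknb : k < nb := by omega
      refine mem_image.2 ⟨k, mem_filter.2 ⟨mem_range.2 hknb,
        fun hkA => h4 ((hA' j).2 ⟨k, hkA, hk⟩), (hact k hknb j hk).1 h2⟩, ?_⟩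
      omega
    exact (card_le_card hsub).trans card_image_le
  have hidx : ∀ k ∈ A, ((k : ℤ) + j0).toNat * len - off = (((k : ℤ) + j0) * len - off).toNat := by
    intro k hk
    have h1 := hk0 k (hA k hk).1 (hA k hk).2
    obtain ⟨j, hj⟩ := Int.eq_ofNat_of_zero_le h1
    rw [hj, Int.toNat_natCast]
    have : ((j : ℤ) * len - off) = ((j * len : ℕ) : ℤ) - off := by push_cast; ring
    rw [this]
    omega
  rw [hre, hre, hcardA] at hmain
  have e1 : ∑ k ∈ A, lhsO (((k : ℤ) + j0).toNat * len - off) =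
      ∑ k ∈ A, lhsO (((k : ℤ) + j0) * len - off).toNat :=
    sum_congr rfl fun k hk => by rw [hidx k hk]
  have e2 : ∑ k ∈ A, ∑ i ∈ range len, GO (((k : ℤ) + j0).toNat * len - off + i) =
      ∑ k ∈ A, ∑ i ∈ range len, GO ((((k : ℤ) + j0) * len - off).toNat + i) :=
    sum_congr rfl fun k hk => by rw [hidx k hk]
  rw [e1, e2] at hmain
  have hU : (((range N).filter fun j => (act j ∧ j0.toNat ≤ j) ∧ ¬ A' j).card : ℝ) ≤
      (((range nb).filter fun k => k ∉ A ∧ cl k).card : ℝ) := by exact_mod_cast hcardU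
  have h3 := mul_le_mul_of_nonneg_right (add_le_add_right hU 1) hQ
  linarith

open Classical in
/-- Sum of the inequalities of the classes. -/
theorem union_of_classes {nb h : ℕ} (Ls : Finset ℕ) {cl : ℕ → ℕ → Prop}
    (hdisj : ∀ l ∈ Ls, ∀ l' ∈ Ls, ∀ k, k < nb → cl l k → cl l' k → l = l') {act : ℕ → Prop}
    (hact : ∀ k, k < nb → (act k ↔ ∃ l ∈ Ls, cl l k)) {lam G m : ℕ → ℝ}
    (hm0 : ∀ k, k < nb → 0 ≤ m k) {B : ℝ} (hm1 : ∑ k ∈ range nb, m k ≤ B)
    {cQ cmin err : ℕ → ℝ}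
    {C : ℝ} (hcmin : ∀ l ∈ Ls, 0 < cmin l)
    (hc : ∀ l ∈ Ls, ∀ k, k < nb → cl l k → cmin l ≤ m k)
    (hC : ∀ l ∈ Ls, ∀ k, k < nb → cl l k → cQ l ≤ C * m k)
    (herr : ∀ l ∈ Ls, 0 ≤ err l)
    (hMI : ∀ l ∈ Ls, ∀ A : Finset ℕ, (∀ k ∈ A, k < nb ∧ cl l k) →
      ∑ k ∈ A, lam k ≤ 2 * ∑ k ∈ A, G k
        + (1 + (((range nb).filter fun k => k ∉ A ∧ cl l k).card : ℝ)) * (h * cQ l)
        + (A.card : ℝ) * err l)
    (A : Finset ℕ) (hA : ∀ k ∈ A, k < nb ∧ act k) :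
    ∑ k ∈ A, lam k ≤ 2 * ∑ k ∈ A, G k
      + h * C * ∑ k ∈ (range nb).filter (fun k => k ∉ A), ind (act k) * m k
      + ∑ l ∈ Ls, (h * cQ l + B / cmin l * err l) := by
  have hsplit : ∀ f : ℕ → ℝ, ∑ k ∈ A, f k = ∑ l ∈ Ls, ∑ k ∈ A.filter (cl l), f k := by
    intro f
    simp only [sum_filter]
    rw [sum_comm]
    refine sum_congr rfl fun k hk => ?_
    obtain ⟨hk1, hk2⟩ := hA k hk
    obtain ⟨l, hl, hcl⟩ := (hact k hk1).1 hk2
    rw [sum_eq_single l, if_pos hcl]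
    · intro l' hl' hne
      rw [if_neg]
      intro hcl'
      exact hne (hdisj l' hl' l hl k hk1 hcl' hcl)
    · intro hl'; exact absurd hl hl'
  have hU : ∀ l ∈ Ls, ∀ k, (k < nb ∧ k ∉ A.filter (cl l) ∧ cl l k) ↔
      (k < nb ∧ k ∉ A ∧ cl l k) := by
    intro l _ k
    simp only [mem_filter]
    tauto
  have hl : ∀ l ∈ Ls, ∑ k ∈ A.filter (cl l), lam k ≤ 2 * ∑ k ∈ A.filter (cl l), G k
      + h * C * ∑ k ∈ (range nb).filter (fun k => k ∉ A ∧ cl l k), m k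
      + (h * cQ l + B / cmin l * err l) := by
    intro l hl
    have h1 := hMI l hl (A.filter (cl l)) fun k hk =>
      ⟨(hA k (mem_filter.1 hk).1).1, (mem_filter.1 hk).2⟩
    have hset : (range nb).filter (fun k => k ∉ A.filter (cl l) ∧ cl l k) =
        (range nb).filter (fun k => k ∉ A ∧ cl l k) := by
      ext k
      have := hU l hl k
      simp only [mem_filter, mem_range] at this ⊢
      exact this
    rw [hset] at h1
    have h2 : (((range nb).filter fun k => k ∉ A ∧ cl l k).card : ℝ) * (h * cQ l) ≤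
        h * C * ∑ k ∈ (range nb).filter (fun k => k ∉ A ∧ cl l k), m k := by
      rw [← nsmul_eq_mul, ← sum_const, mul_sum]
      refine sum_le_sum fun k hk => ?_
      obtain ⟨hk1, hk2⟩ := mem_filter.1 hk
      have := hC l hl k (mem_range.1 hk1) hk2.2
      have h3 : (0 : ℝ) ≤ h := by positivity
      nlinarith [mul_le_mul_of_nonneg_left this h3]
    have h3 : ((A.filter (cl l)).card : ℝ) * err l ≤ B / cmin l * err l := by
      refine mul_le_mul_of_nonneg_right ?_ (herr l hl)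
      rw [le_div_iff₀ (hcmin l hl), ← nsmul_eq_mul, ← sum_const]
      calc ∑ _k ∈ A.filter (cl l), cmin l ≤ ∑ k ∈ A.filter (cl l), m k :=
            sum_le_sum fun k hk => hc l hl k (hA k (mem_filter.1 hk).1).1 (mem_filter.1 hk).2
        _ ≤ ∑ k ∈ range nb, m k := sum_le_sum_of_subset_of_nonneg
            (fun k hk => mem_range.2 (hA k (mem_filter.1 hk).1).1)
            fun k hk _ => hm0 k (mem_range.1 hk)
        _ ≤ B := hm1
    linarith
  rw [hsplit lam, hsplit G]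
  refine (sum_le_sum hl).trans (le_of_eq ?_)
  rw [sum_add_distrib, sum_add_distrib, ← mul_sum, ← mul_sum]
  congr 2
  congr 1
  simp only [sum_filter]
  rw [sum_comm]
  refine sum_congr rfl fun k hk => ?_
  have hk' := mem_range.1 hk
  by_cases hkA : k ∈ A
  · simp [hkA]
  · by_cases ha : act k
    · obtain ⟨l, hl, hcl⟩ := (hact k hk').1 ha
      rw [sum_eq_single l]
      · simp [hkA, hcl, ind_true ha]
      · intro l' hl' hne
        rw [if_neg]
        rintro ⟨_, hcl'⟩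
        exact hne (hdisj l' hl' l hl k hk' hcl' hcl)
      · intro hl'; exact absurd hl hl'
    · rw [ind_false ha, zero_mul]
      simp only [hkA, not_false_eq_true, true_and, if_true]
      refine sum_eq_zero fun l hl => ?_
      rw [if_neg]
      intro hcl
      exact ha ((hact k hk').2 ⟨l, hl, hcl⟩)

end Static

/-! ### Averages over the units of a top -/

/-- Weighted sum over a fibre of a function of the ancestor `d` levels below the fibre. -/
theorem sum_desc {M n j d : ℕ} (hM : 0 < M) (hj : j + d ≤ n) {i : ℕ}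
    (hi : i < M ^ (n - (j + d))) (w F : ℕ → ℝ) :
    ∑ y ∈ univ.filter (fun y : Fin (M ^ n) => (y : ℕ) / M ^ (j + d) = i),
      w y * F ((y : ℕ) / M ^ j) =
    ∑ m : Fin (M ^ d), H808.bs M w j (i * M ^ d + m) * F (i * M ^ d + m) := by
  rw [H808.sum_fib hM hj hi (fun y => w y * F (y / M ^ j))]
  unfold H808.bs
  have h : M ^ (j + d) = M ^ d * M ^ j := by rw [pow_add, mul_comm]
  rw [h, H808.sum_range_mul
    (fun r => w (i * (M ^ d * M ^ j) + r) * F ((i * (M ^ d * M ^ j) + r) / M ^ j)),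
    Finset.sum_range]
  refine sum_congr rfl fun m _ => ?_
  rw [sum_mul]
  refine sum_congr rfl fun r hr => ?_
  have hp : 0 < M ^ j := Nat.pow_pos hM
  have e1 : i * (M ^ d * M ^ j) + ((m : ℕ) * M ^ j + r) = M ^ j * (i * M ^ d + m) + r := by ring
  have e2 : (M ^ j * (i * M ^ d + (m : ℕ)) + r) / M ^ j = i * M ^ d + m := by
    rw [Nat.mul_add_div hp, Nat.div_eq_of_lt (mem_range.1 hr), add_zero]
  rw [e1, e2, mul_comm (M ^ j) (i * M ^ d + (m : ℕ))]

variable {M n : ℕ}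

theorem quot_lt' (hM : 0 < M) {j : ℕ} (hj : j ≤ n) (x : Fin (M ^ n)) :
    (x : ℕ) / M ^ j < M ^ (n - j) := by
  rw [Nat.div_lt_iff_lt_mul (Nat.pow_pos hM), ← pow_add]
  have : n - j + j = n := by omega
  rw [this]
  exact x.isLt

variable [Nonempty (Fin (M ^ n))]

/-- Average over a top of a function of the unit. -/
theorem av_desc (hM : 0 < M) (S : Sys (Fin (M ^ n))) {w : ℕ → ℝ} (hw : ∀ x, S.w x = w x)
    (hq : ∀ j x, S.q j x = (x : ℕ) / M ^ j) {j d : ℕ} (hj : j + d ≤ n) (F : ℕ → ℝ)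
    (x : Fin (M ^ n)) :
    S.av (j + d) (fun y => F ((y : ℕ) / M ^ j)) x =
      (∑ m : Fin (M ^ d), H808.bs M w j ((x : ℕ) / M ^ (j + d) * M ^ d + m) *
        F ((x : ℕ) / M ^ (j + d) * M ^ d + m)) /
      ∑ m : Fin (M ^ d), H808.bs M w j ((x : ℕ) / M ^ (j + d) * M ^ d + m) := by
  have hx := quot_lt' (n := n) hM hj x
  have h1 := sum_desc (n := n) hM hj hx w F
  have h2 := sum_desc (n := n) hM hj hx w (fun _ => 1)
  simp only [mul_one] at h2
  show avg S.w S.q (j + d) _ x = _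
  unfold avg
  have e : (univ.filter fun y => S.q (j + d) y = S.q (j + d) x) =
      univ.filter (fun y : Fin (M ^ n) => (y : ℕ) / M ^ (j + d) = (x : ℕ) / M ^ (j + d)) := by
    ext y
    simp only [mem_filter, mem_univ, true_and, hq]
  rw [e, ← h1, ← h2]
  congr 1
  · exact sum_congr rfl fun y _ => by rw [hw]
  · exact sum_congr rfl fun y _ => hw y

/-! ### One block -/

variable {S : Sys (Fin (M ^ n))}

/-- The average over the units, for weights `om` of the units up to a common factor. -/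
theorem av_units (hM : 0 < M) {w : ℕ → ℝ}
    (hw : ∀ x, S.w x = w x) (hq : ∀ j x, S.q j x = (x : ℕ) / M ^ j) {s a : ℕ}
    (hsa : (a + 1) * 2 ^ s ≤ n)
    {x : Fin (M ^ n)} {om : Fin (M ^ 2 ^ s) → ℝ} {N0 : ℝ} (hN0 : 0 < N0)
    (hom : ∀ m : Fin (M ^ 2 ^ s), H808.bs M w (a * 2 ^ s)
      ((x : ℕ) / M ^ ((a + 1) * 2 ^ s) * M ^ 2 ^ s + m) = N0 * om m) (F : ℕ → ℝ) :
    S.av ((a + 1) * 2 ^ s) (fun y => F ((y : ℕ) / M ^ (a * 2 ^ s))) x =
      (∑ m : Fin (M ^ 2 ^ s), om m *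
        F ((x : ℕ) / M ^ ((a + 1) * 2 ^ s) * M ^ 2 ^ s + m)) / ∑ m, om m := by
  have hlev : (a + 1) * 2 ^ s = a * 2 ^ s + 2 ^ s := by ring
  have h1 := av_desc (n := n) hM S hw hq (j := a * 2 ^ s) (d := 2 ^ s) (by omega) F x
  rw [← hlev] at h1
  rw [h1]
  simp only [hom, mul_assoc]
  rw [← mul_sum, ← mul_sum, mul_div_mul_left _ _ hN0.ne']

/-- Left side of a block as a sum over the units; `c v` = curve of the unit `v`, `om` = weights of
the units. -/
theorem lhs_units (hM : 0 < M) (R : Mach S) {w : ℕ → ℝ}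
    (hw : ∀ x, S.w x = w x) (hq : ∀ j x, S.q j x = (x : ℕ) / M ^ j) {c : ℕ → ℕ → ℝ} {s a : ℕ}
    (hc : ∀ y b, S.e (a * 2 ^ s) y b = c ((y : ℕ) / M ^ (a * 2 ^ s)) b)
    (hsa : (a + 1) * 2 ^ s ≤ n) {C7 : ℝ} {good : ℕ → ℕ → Fin (M ^ n) → Prop} {o k : ℕ}
    {x : Fin (M ^ n)} {om : Fin (M ^ 2 ^ s) → ℝ} {N0 : ℝ} (hN0 : 0 < N0)
    (hom : ∀ m : Fin (M ^ 2 ^ s), H808.bs M w (a * 2 ^ s)
      ((x : ℕ) / M ^ ((a + 1) * 2 ^ s) * M ^ 2 ^ s + m) = N0 * om m)
    {gd : Fin (M ^ 2 ^ s) → Prop}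
    (hgd : ∀ m : Fin (M ^ 2 ^ s), ∀ y : Fin (M ^ n), (y : ℕ) / M ^ (a * 2 ^ s) =
      (x : ℕ) / M ^ ((a + 1) * 2 ^ s) * M ^ 2 ^ s + m → good s a y → gd m)
    {cN : ℝ} (hcN : C7 * R.m o s a x k ≤ cN) :
    R.lhs C7 good o s a x k ≤ ∑ i ∈ range (S.D s + 1 - 2 ^ s),
      (∑ m : Fin (M ^ 2 ^ s), om m *
        ((c ((x : ℕ) / M ^ ((a + 1) * 2 ^ s) * M ^ 2 ^ s + m) (S.b0 o s k + i) -
          c ((x : ℕ) / M ^ ((a + 1) * 2 ^ s) * M ^ 2 ^ s + m) (S.b0 o s k + i + 2 ^ s)) *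
        ind (c ((x : ℕ) / M ^ ((a + 1) * 2 ^ s) * M ^ 2 ^ s + m) (S.b0 o s k) -
          c ((x : ℕ) / M ^ ((a + 1) * 2 ^ s) * M ^ 2 ^ s + m) (S.b0 o s k + S.D s) ≤ cN ∧
          gd m))) / ∑ m, om m := by
  classical
  set t := (x : ℕ) / M ^ ((a + 1) * 2 ^ s) with ht
  set B0 := S.b0 o s k with hB0
  have hB1 : S.b1 o s k = B0 + S.D s := by
    rw [hB0]; unfold Sys.b0 Sys.b1; ring
  unfold Mach.lhs
  refine Finset.sum_le_sum fun i _ => ?_
  have h2s := Nat.one_le_two_pow (n := s)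
  set g : ℕ → ℝ := fun v => (c v (B0 + i) - c v (B0 + i + 2 ^ s)) *
    ind (c v B0 - c v (B0 + S.D s) ≤ cN ∧
      ∀ m : Fin (M ^ 2 ^ s), v = t * M ^ 2 ^ s + m → gd m) with hg
  have h1 : S.av ((a + 1) * 2 ^ s) (fun y =>
      S.nu (a * 2 ^ s) y (B0 + i) (B0 + i + 2 ^ s) *
        ind (S.nuU o s a y k ≤ C7 * R.m o s a x k ∧ good s a y)) x ≤
      S.av ((a + 1) * 2 ^ s) (fun y => g ((y : ℕ) / M ^ (a * 2 ^ s))) x := by
    refine avg_mono S.hw x fun y _ => ?_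
    have e1 : S.nu (a * 2 ^ s) y (B0 + i) (B0 + i + 2 ^ s) =
        c ((y : ℕ) / M ^ (a * 2 ^ s)) (B0 + i)
        - c ((y : ℕ) / M ^ (a * 2 ^ s)) (B0 + i + 2 ^ s) := by
      unfold Sys.nu; rw [hc, hc]
    have e2 : S.nuU o s a y k = c ((y : ℕ) / M ^ (a * 2 ^ s)) B0
        - c ((y : ℕ) / M ^ (a * 2 ^ s)) (B0 + S.D s) := by
      unfold Sys.nuU Sys.nu; rw [hc, hc, hB1]
    have e3 : 0 ≤ c ((y : ℕ) / M ^ (a * 2 ^ s)) (B0 + i)
        - c ((y : ℕ) / M ^ (a * 2 ^ s)) (B0 + i + 2 ^ s) := by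
      rw [← e1]
      unfold Sys.nu
      have := S.anti (a * 2 ^ s) y (show B0 + i ≤ B0 + i + 2 ^ s by omega)
      linarith
    show S.nu (a * 2 ^ s) y (B0 + i) (B0 + i + 2 ^ s) *
        ind (S.nuU o s a y k ≤ C7 * R.m o s a x k ∧ good s a y) ≤ g _
    rw [hg, e1, e2]
    exact mul_le_mul_of_nonneg_left (ind_mono fun h => ⟨h.1.trans hcN, fun m hm =>
      hgd m y hm h.2⟩) e3
  refine h1.trans ?_
  rw [av_units (n := n) hM hw hq hsa hN0 hom]
  refine le_of_eq ?_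
  congr 1
  refine Finset.sum_congr rfl fun m _ => ?_
  show om m * ((c (t * M ^ 2 ^ s + m) (B0 + i) - c (t * M ^ 2 ^ s + m) (B0 + i + 2 ^ s)) *
    ind (c (t * M ^ 2 ^ s + m) B0 - c (t * M ^ 2 ^ s + m) (B0 + S.D s) ≤ cN ∧
      ∀ m' : Fin (M ^ 2 ^ s), t * M ^ 2 ^ s + (m : ℕ) = t * M ^ 2 ^ s + m' → gd m')) = _
  rw [ind_congr (p := c (t * M ^ 2 ^ s + m) B0 - c (t * M ^ 2 ^ s + m) (B0 + S.D s) ≤ cN ∧
      ∀ m' : Fin (M ^ 2 ^ s), t * M ^ 2 ^ s + (m : ℕ) = t * M ^ 2 ^ s + m' → gd m')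
    (r := c (t * M ^ 2 ^ s + m) B0 - c (t * M ^ 2 ^ s + m) (B0 + S.D s) ≤ cN ∧ gd m)]
  refine ⟨fun h => ⟨h.1, h.2 m rfl⟩, fun h => ⟨h.1, fun m' hm' => ?_⟩⟩
  have : m = m' := Fin.ext (Nat.add_left_cancel hm')
  rw [← this]; exact h.2

/-- The average of the units and the gain. -/
theorem V_units (hM : 0 < M) {w : ℕ → ℝ}
    (hw : ∀ x, S.w x = w x) (hq : ∀ j x, S.q j x = (x : ℕ) / M ^ j) {c : ℕ → ℕ → ℝ} {s a : ℕ}
    (hc : ∀ y b, S.e (a * 2 ^ s) y b = c ((y : ℕ) / M ^ (a * 2 ^ s)) b)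
    (hsa : (a + 1) * 2 ^ s ≤ n)
    {x : Fin (M ^ n)} {om : Fin (M ^ 2 ^ s) → ℝ} {N0 : ℝ} (hN0 : 0 < N0)
    (hom : ∀ m : Fin (M ^ 2 ^ s), H808.bs M w (a * 2 ^ s)
      ((x : ℕ) / M ^ ((a + 1) * 2 ^ s) * M ^ 2 ^ s + m) = N0 * om m) (b : ℕ) :
    S.V s a x b = (∑ m : Fin (M ^ 2 ^ s), om m *
        c ((x : ℕ) / M ^ ((a + 1) * 2 ^ s) * M ^ 2 ^ s + m) b) / ∑ m, om m := by
  unfold Sys.V
  simp only [hc]
  exact av_units (n := n) hM hw hq hsa hN0 hom fun v => c v b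

/-! ### The curves along the comparison path in the own rounds of a region -/

section Own

variable (A : H808.Along M n)

/-- Sum of the shifts between the region `(J, i)` and its unit number `m`, `J - j` levels below. -/
def shU (j J i m : ℕ) : ℕ :=
  ∑ l ∈ Ico j J, A.sft l ((i * M ^ (J - j) + m) / M ^ (l - j))

/-- Cost of the region along the path in the own round `t` (`H` = start of the machines). -/
def ownR (H : ℤ) (J i t : ℕ) : ℝ := A.C J i ((t : ℤ) - H)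

/-- Cost of the unit `m` of the region along the path in the own round `t` of the region. -/
def ownU (H : ℤ) (j J i t m : ℕ) : ℝ :=
  A.C j (i * M ^ (J - j) + m) ((t : ℤ) - H - shU A j J i m)

omit [Nonempty (Fin (M ^ n))] in
/-- The total shift above a unit. -/
theorem S_unit (hM : 0 < M) {j J m : ℕ} (hjJ : j ≤ J) (hJ : J ≤ n) (hm : m < M ^ (J - j))
    (x : ℕ) {y : ℕ} (hy : y / M ^ j = x / M ^ J * M ^ (J - j) + m) :
    A.S j y = shU A j J (x / M ^ J) m + A.S J x := by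
  have hp : ∀ e, 0 < M ^ e := fun e => Nat.pow_pos hM
  unfold H808.Along.S shU
  rw [← sum_Ico_consecutive _ hjJ hJ]
  congr 1
  · refine sum_congr rfl fun l hl => ?_
    have hl' := mem_Ico.1 hl
    have e1 : M ^ l = M ^ j * M ^ (l - j) := by rw [← pow_add]; congr 1; omega
    rw [e1, ← Nat.div_div_eq_div_mul, hy]
  · refine sum_congr rfl fun l hl => ?_
    have hl' := mem_Ico.1 hl
    have e1 : M ^ l = M ^ j * (M ^ (J - j) * M ^ (l - J)) := by
      rw [← pow_add, ← pow_add]; congr 1; omega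
    have e2 : M ^ l = M ^ J * M ^ (l - J) := by rw [← pow_add]; congr 1; omega
    have e3 : y / M ^ l = x / M ^ l := by
      rw [e1, ← Nat.div_div_eq_div_mul, ← Nat.div_div_eq_div_mul, hy, mul_comm (x / M ^ J),
        Nat.mul_add_div (hp _), Nat.div_eq_of_lt hm, add_zero, ← e1, e2,
        Nat.div_div_eq_div_mul]
    rw [e3]

omit [Nonempty (Fin (M ^ n))] in
theorem bs_desc (f : ℕ → ℝ) {j J : ℕ} (hjJ : j ≤ J) (i : ℕ) :
    H808.bs M f J i = ∑ m : Fin (M ^ (J - j)), H808.bs M f j (i * M ^ (J - j) + m) := by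
  unfold H808.bs
  have h : M ^ J = M ^ (J - j) * M ^ j := by rw [← pow_add]; congr 1; omega
  rw [h, H808.sum_range_mul (fun r => f (i * (M ^ (J - j) * M ^ j) + r)), Finset.sum_range]
  refine sum_congr rfl fun m _ => sum_congr rfl fun r _ => ?_
  congr 1
  ring

end Own

/-! ### Uniform weights: the theorem for one top -/

section Uniform

variable (A : H808.Along M n)

open Classical in
/-- **From the machine inequalities of one region to the union form**, uniform weights.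
`t = lo + β - S + H` is the own round that belongs to the static index `β`; the static block `k` is
the block number `k + j0` of the machines with the offset `off`. -/
theorem union_region (hM : 0 < M) (R : Mach S) {lo H : ℤ} {w0 : ℝ} (hw0 : 0 < w0)
    (hwc : ∀ r, A.w r = w0) (hw : ∀ x, S.w x = A.w x)
    (hq : ∀ j x, S.q j x = (x : ℕ) / M ^ j)
    (he : ∀ j x b, j ≤ n → S.e j x b = A.e lo j x b) {s a o : ℕ}
    (hsa : (a + 1) * 2 ^ s ≤ n) (hD : 0 < S.D s) (x : Fin (M ^ n))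
    {off : ℕ} {j0 : ℤ}
    (hj0 : j0 * S.D s = lo - A.S ((a + 1) * 2 ^ s) x + H + o + off)
    {C7 : ℝ} {good : ℕ → ℕ → Fin (M ^ n) → Prop}
    (Ls : Finset ℕ) {act : ℕ → Prop} {actM cl : ℕ → ℕ → Prop} {cN cQ cmin err : ℕ → ℝ}
    {C B : ℝ}
    (hdisj : ∀ l ∈ Ls, ∀ l' ∈ Ls, ∀ k, k < S.nb s → cl l k → cl l' k → l = l')
    (hact : ∀ k, k < S.nb s → (act k ↔ ∃ l ∈ Ls, cl l k))
    (hcls : ∀ l ∈ Ls, ∀ k, k < S.nb s → ∀ j : ℕ, (j : ℤ) = k + j0 → (actM l j ↔ cl l k))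
    (hst : ∀ l ∈ Ls, ∀ k, k < S.nb s → cl l k → (off : ℤ) ≤ (k + j0) * S.D s)
    (hcN : ∀ l ∈ Ls, ∀ k, k < S.nb s → cl l k → C7 * R.m o s a x k ≤ cN l)
    (hcmin : ∀ l ∈ Ls, 0 < cmin l)
    (hc : ∀ l ∈ Ls, ∀ k, k < S.nb s → cl l k → cmin l ≤ R.m o s a x k)
    (hC : ∀ l ∈ Ls, ∀ k, k < S.nb s → cl l k → cQ l ≤ C * R.m o s a x k)
    (hQ : ∀ l ∈ Ls, 0 ≤ cQ l) (herr : ∀ l ∈ Ls, 0 ≤ err l)
    (hB : ∑ k ∈ range (S.nb s), R.m o s a x k ≤ B)
    (hreg : ∀ l ∈ Ls, ∀ A' : ℕ → Prop, (∀ j, A' j → actM l j) → (∀ j, A' j → j0.toNat ≤ j) →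
      (∀ j, A' j → off ≤ j * S.D s) → (∀ j, A' j → j < ((S.nb s : ℤ) + j0).toNat) →
      ∑ j ∈ (range ((S.nb s : ℤ) + j0).toNat).filter A',
        H132.lhsE (fun m : Fin (M ^ 2 ^ s) => A.DE (a * 2 ^ s)
            ((x : ℕ) / M ^ ((a + 1) * 2 ^ s) * M ^ 2 ^ s + m)) ((M ^ (a * 2 ^ s) : ℕ) * w0) (cN l)
          (fun t m => ownU A H (a * 2 ^ s) ((a + 1) * 2 ^ s)
            ((x : ℕ) / M ^ ((a + 1) * 2 ^ s)) t m) (2 ^ s) (S.D s) (j * S.D s - off) ≤
        2 * ∑ j ∈ (range ((S.nb s : ℤ) + j0).toNat).filter A', ∑ i ∈ range (S.D s),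
          (H132.VV (fun m : Fin (M ^ 2 ^ s) => A.DE (a * 2 ^ s)
              ((x : ℕ) / M ^ ((a + 1) * 2 ^ s) * M ^ 2 ^ s + m)) ((M ^ (a * 2 ^ s) : ℕ) * w0)
            (fun m => ownU A H (a * 2 ^ s) ((a + 1) * 2 ^ s)
              ((x : ℕ) / M ^ ((a + 1) * 2 ^ s)) (j * S.D s - off + i) m) -
          H132.eR (fun m : Fin (M ^ 2 ^ s) => A.DE (a * 2 ^ s)
              ((x : ℕ) / M ^ ((a + 1) * 2 ^ s) * M ^ 2 ^ s + m)) ((M ^ (a * 2 ^ s) : ℕ) * w0)
            (ownR A H ((a + 1) * 2 ^ s) ((x : ℕ) / M ^ ((a + 1) * 2 ^ s))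
              (j * S.D s - off + i)))
        + (1 + (((range ((S.nb s : ℤ) + j0).toNat).filter
            fun j => (actM l j ∧ j0.toNat ≤ j) ∧ ¬ A' j).card : ℝ)) * ((2 ^ s : ℕ) * cQ l)
        + (((range ((S.nb s : ℤ) + j0).toNat).filter A').card : ℝ) * err l)
    (A₀ : Finset ℕ) (hA₀ : ∀ k ∈ A₀, k < S.nb s ∧ act k) :
    ∑ k ∈ A₀, R.lhs C7 good o s a x k ≤
      2 * ∑ k ∈ A₀, ∑ i ∈ range (S.D s), S.G s a x (S.b0 o s k + i) +
      2 ^ s * C * (∑ k ∈ (range (S.nb s)).filter (fun k => k ∉ A₀),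
        ind (act k) * R.m o s a x k) +
      ∑ l ∈ Ls, (2 ^ s * cQ l + B / cmin l * err l) := by
  set J := (a + 1) * 2 ^ s with hJ
  set j1 := a * 2 ^ s with hj1
  set i0 := (x : ℕ) / M ^ J with hi0
  set len := S.D s with hlen
  have hJe : J = j1 + 2 ^ s := by rw [hJ, hj1]; ring
  have hJj : J - j1 = 2 ^ s := by rw [hJe, Nat.add_sub_cancel_left]
  have hjJ : j1 ≤ J := by rw [hJe]; exact Nat.le_add_right _ _
  have hK : 0 < M ^ 2 ^ s := Nat.pow_pos hM
  have : Nonempty (Fin (M ^ 2 ^ s)) := ⟨⟨0, hK⟩⟩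
  -- weights
  have hWu : ∀ j v, H808.bs M A.w j v = (M ^ j : ℕ) * w0 := by
    intro j v
    unfold H808.bs
    simp only [hwc]
    rw [sum_const, card_range, nsmul_eq_mul]
  have hN0 : (0 : ℝ) < (M ^ j1 : ℕ) * w0 := mul_pos (by exact_mod_cast Nat.pow_pos hM) hw0
  have hom : ∀ m : Fin (M ^ 2 ^ s), H808.bs M A.w j1 (i0 * M ^ 2 ^ s + m) =
      (M ^ j1 : ℕ) * w0 * (1 : ℝ) := fun m => by rw [hWu, mul_one]
  -- curve of a unit in the static coordinate
  set c : ℕ → ℕ → ℝ := fun v b =>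
    A.ex j1 v (lo + b - (∑ l ∈ Ico j1 n, A.sft l (v / M ^ (l - j1)) : ℕ)) with hc'
  have hcc : ∀ (y : Fin (M ^ n)) b, S.e j1 y b = c ((y : ℕ) / M ^ j1) b := by
    intro y b
    rw [he j1 y b (hjJ.trans hsa)]
    show A.ex j1 _ (lo + b - A.S j1 y) = A.ex j1 _ _
    congr 3
    unfold H808.Along.S
    refine sum_congr rfl fun l hl => ?_
    have hl' := mem_Ico.1 hl
    have e1 : M ^ l = M ^ j1 * M ^ (l - j1) := by rw [← pow_add]; congr 1; omega
    rw [e1, ← Nat.div_div_eq_div_mul]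
  -- the unit `m` of the region
  have hsh : ∀ m : Fin (M ^ 2 ^ s),
      (∑ l ∈ Ico j1 n, A.sft l ((i0 * M ^ 2 ^ s + (m : ℕ)) / M ^ (l - j1))) =
      shU A j1 J i0 m + A.S J x := by
    intro m
    have h1 := S_unit A hM hjJ hsa (m := m) (by rw [hJj]; exact m.isLt) (x : ℕ)
      (y := (i0 * M ^ 2 ^ s + (m : ℕ)) * M ^ j1)
      (by rw [hJj, Nat.mul_div_cancel _ (Nat.pow_pos hM)])
    rw [← hi0] at h1
    rw [← h1]
    unfold H808.Along.S
    refine sum_congr rfl fun l hl => ?_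
    have hl' := mem_Ico.1 hl
    have e1 : M ^ l = M ^ j1 * M ^ (l - j1) := by rw [← pow_add]; congr 1; omega
    rw [e1, ← Nat.div_div_eq_div_mul, Nat.mul_div_cancel _ (Nat.pow_pos hM)]
  have hcU : ∀ (m : Fin (M ^ 2 ^ s)) (b t : ℕ), (t : ℤ) = lo + b - A.S J x + H →
      H132.nx (A.DE j1 (i0 * M ^ 2 ^ s + m)) ((M ^ j1 : ℕ) * w0) (ownU A H j1 J i0 t m) =
      c (i0 * M ^ 2 ^ s + m) b := by
    intro m b t ht
    show max 0 ((A.C j1 (i0 * M ^ (J - j1) + m) ((t : ℤ) - H - shU A j1 J i0 m) -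
      A.DE j1 (i0 * M ^ 2 ^ s + m)) / ((M ^ j1 : ℕ) * w0)) =
      max 0 ((A.C j1 (i0 * M ^ 2 ^ s + m) (lo + b -
        (∑ l ∈ Ico j1 n, A.sft l ((i0 * M ^ 2 ^ s + (m : ℕ)) / M ^ (l - j1)) : ℕ)) -
        A.DE j1 (i0 * M ^ 2 ^ s + m)) / H808.bs M A.w j1 (i0 * M ^ 2 ^ s + m))
    rw [hWu, hJj, hsh m]
    have : (t : ℤ) - H - (shU A j1 J i0 m : ℕ) =
        lo + b - ((shU A j1 J i0 m + A.S J x : ℕ) : ℤ) := by
      rw [ht]; push_cast; ring
    rw [this]
  have hcR : ∀ (b t : ℕ), (t : ℤ) = lo + b - A.S J x + H →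
      H132.eR (fun m : Fin (M ^ 2 ^ s) => A.DE j1 (i0 * M ^ 2 ^ s + m)) ((M ^ j1 : ℕ) * w0)
        (ownR A H J i0 t) = S.e J x b := by
    intro b t ht
    rw [he J x b hsa]
    show max 0 ((A.C J i0 ((t : ℤ) - H) - ∑ m : Fin (M ^ 2 ^ s), A.DE j1 (i0 * M ^ 2 ^ s + m)) /
      ((Fintype.card (Fin (M ^ 2 ^ s)) : ℝ) * ((M ^ j1 : ℕ) * w0))) =
      max 0 ((A.C J ((x : ℕ) / M ^ J) (lo + b - A.S J x) - A.DE J ((x : ℕ) / M ^ J)) /
        H808.bs M A.w J ((x : ℕ) / M ^ J))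
    have e1 : A.DE J i0 = ∑ m : Fin (M ^ 2 ^ s), A.DE j1 (i0 * M ^ 2 ^ s + m) := by
      have := bs_desc (M := M) (fun r => A.d r + A.er r) hjJ i0
      rw [hJj] at this
      exact this
    have e2 : (Fintype.card (Fin (M ^ 2 ^ s)) : ℝ) * ((M ^ j1 : ℕ) * w0) =
        H808.bs M A.w J i0 := by
      rw [hWu, Fintype.card_fin, ← mul_assoc]
      congr 1
      have : M ^ J = M ^ 2 ^ s * M ^ j1 := by
        rw [← pow_add]; congr 1
        rw [hJ, hj1]; ring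
      rw [this]; push_cast; ring
    have e3 : (t : ℤ) - H = lo + b - A.S J x := by rw [ht]; ring
    rw [e2, ← e1, e3]
  -- own rounds of the static blocks
  have htime : ∀ l ∈ Ls, ∀ k, k < S.nb s → cl l k → ∀ i : ℕ,
      (((((k : ℤ) + j0) * len - off).toNat + i : ℕ) : ℤ) =
        lo + ((S.b0 o s k + i : ℕ) : ℤ) - A.S J x + H := by
    intro l hl k hk hck i
    have h1 := hst l hl k hk hck
    have h2 : ((((k : ℤ) + j0) * len - off).toNat : ℤ) = ((k : ℤ) + j0) * len - off :=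
      Int.toNat_of_nonneg (by linarith)
    have h3 : (S.b0 o s k : ℤ) = o + k * len := by
      unfold Sys.b0; push_cast; rw [← hlen]
    push_cast
    rw [h2, h3, add_mul, hj0]
    ring
  -- one class
  have hMI : ∀ l ∈ Ls, ∀ A₁ : Finset ℕ, (∀ k ∈ A₁, k < S.nb s ∧ cl l k) →
      ∑ k ∈ A₁, R.lhs C7 good o s a x k ≤
        2 * ∑ k ∈ A₁, ∑ i ∈ range len, S.G s a x (S.b0 o s k + i)
        + (1 + (((range (S.nb s)).filter fun k => k ∉ A₁ ∧ cl l k).card : ℝ)) *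
            ((2 ^ s : ℕ) * cQ l)
        + (A₁.card : ℝ) * err l := by
    intro l hl A₁ hA₁
    have h1 := static_of_own (nb := S.nb s) (off := off) (len := len) (j0 := j0) hD
      (act := actM l) (cl := cl l)
      (lhsO := H132.lhsE (fun m : Fin (M ^ 2 ^ s) => A.DE j1 (i0 * M ^ 2 ^ s + m))
        ((M ^ j1 : ℕ) * w0) (cN l) (fun t m => ownU A H j1 J i0 t m) (2 ^ s) len)
      (GO := fun t => H132.VV (fun m : Fin (M ^ 2 ^ s) => A.DE j1 (i0 * M ^ 2 ^ s + m))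
          ((M ^ j1 : ℕ) * w0) (fun m => ownU A H j1 J i0 t m) -
        H132.eR (fun m : Fin (M ^ 2 ^ s) => A.DE j1 (i0 * M ^ 2 ^ s + m)) ((M ^ j1 : ℕ) * w0)
          (ownR A H J i0 t))
      (Q := (2 ^ s : ℕ) * cQ l) (err := err l)
      (mul_nonneg (Nat.cast_nonneg _) (hQ l hl)) (hcls l hl) (hst l hl) (hreg l hl) A₁ hA₁
    have hL : ∀ k ∈ A₁, R.lhs C7 good o s a x k ≤
        H132.lhsE (fun m : Fin (M ^ 2 ^ s) => A.DE j1 (i0 * M ^ 2 ^ s + m))
        ((M ^ j1 : ℕ) * w0) (cN l) (fun t m => ownU A H j1 J i0 t m) (2 ^ s) len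
        (((k : ℤ) + j0) * len - off).toNat := by
      intro k hk
      obtain ⟨hk1, hk2⟩ := hA₁ k hk
      have h2 := lhs_units (n := n) hM R hw hq hcc hsa (good := good) (o := o) (k := k) (x := x)
        hN0 hom (gd := fun _ => True) (fun _ _ _ _ => trivial) (hcN l hl k hk1 hk2)
      refine h2.trans (le_of_eq ?_)
      unfold H132.lhsE
      refine sum_congr rfl fun i hi => ?_
      have hi' := mem_range.1 hi
      have h2s := Nat.one_le_two_pow (n := s)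
      rw [sum_const, card_univ, nsmul_eq_mul, mul_one]
      congr 1
      refine sum_congr rfl fun m _ => ?_
      have ht := htime l hl k hk1 hk2
      set t0 := (((k : ℤ) + j0) * len - off).toNat with ht0
      have f0 := hcU m (S.b0 o s k) t0 (by simpa using ht 0)
      have f1 := hcU m (S.b0 o s k + len) (t0 + len) (ht len)
      have f2 := hcU m (S.b0 o s k + i) (t0 + i) (ht i)
      have f3 := hcU m (S.b0 o s k + i + 2 ^ s) (t0 + i + 2 ^ s) (by
        have := ht (i + 2 ^ s)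
        rw [← add_assoc, ← add_assoc] at this
        exact this)
      rw [f0, f1, f2, f3, one_mul]
      congr 1
      unfold ind
      by_cases hcd : c (i0 * M ^ 2 ^ s + m) (S.b0 o s k) -
          c (i0 * M ^ 2 ^ s + m) (S.b0 o s k + len) ≤ cN l
      · rw [if_pos ⟨hcd, trivial⟩, if_pos hcd]
      · rw [if_neg (fun h => hcd h.1), if_neg hcd]
    have hG : ∀ k ∈ A₁, ∀ i ∈ range len,
        (fun t => H132.VV (fun m : Fin (M ^ 2 ^ s) => A.DE j1 (i0 * M ^ 2 ^ s + m))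
          ((M ^ j1 : ℕ) * w0) (fun m => ownU A H j1 J i0 t m) -
        H132.eR (fun m : Fin (M ^ 2 ^ s) => A.DE j1 (i0 * M ^ 2 ^ s + m)) ((M ^ j1 : ℕ) * w0)
          (ownR A H J i0 t)) ((((k : ℤ) + j0) * len - off).toNat + i) =
        S.G s a x (S.b0 o s k + i) := by
      intro k hk i _
      obtain ⟨hk1, hk2⟩ := hA₁ k hk
      have ht := htime l hl k hk1 hk2 i
      show H132.VV _ _ _ - H132.eR _ _ _ = S.V s a x (S.b0 o s k + i) -
        S.e J x (S.b0 o s k + i)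
      rw [hcR (S.b0 o s k + i) _ ht,
        V_units (n := n) hM hw hq hcc hsa hN0 hom (S.b0 o s k + i)]
      congr 1
      unfold H132.VV
      rw [sum_const, card_univ, nsmul_eq_mul, mul_one]
      congr 1
      refine sum_congr rfl fun m _ => ?_
      rw [hcU m (S.b0 o s k + i) _ ht, one_mul]
    have e1 : ∑ k ∈ A₁, ∑ i ∈ range len,
        (fun t => H132.VV (fun m : Fin (M ^ 2 ^ s) => A.DE j1 (i0 * M ^ 2 ^ s + m))
          ((M ^ j1 : ℕ) * w0) (fun m => ownU A H j1 J i0 t m) -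
        H132.eR (fun m : Fin (M ^ 2 ^ s) => A.DE j1 (i0 * M ^ 2 ^ s + m)) ((M ^ j1 : ℕ) * w0)
          (ownR A H J i0 t)) ((((k : ℤ) + j0) * len - off).toNat + i) =
        ∑ k ∈ A₁, ∑ i ∈ range len, S.G s a x (S.b0 o s k + i) :=
      sum_congr rfl fun k hk => sum_congr rfl fun i hi => hG k hk i hi
    rw [e1] at h1
    exact (sum_le_sum hL).trans h1
  have hm0 : ∀ k, k < S.nb s → 0 ≤ R.m o s a x k := by
    intro k _
    unfold Mach.m
    have := R.omAnti s a x (show S.b0 o s k ≤ S.b1 o s k by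
      unfold Sys.b0 Sys.b1
      exact Nat.add_le_add_left (Nat.mul_le_mul_right _ (Nat.le_succ k)) _)
    linarith
  have hfin := union_of_classes (h := 2 ^ s) Ls hdisj hact hm0 hB hcmin hc hC herr hMI A₀ hA₀
  push_cast at hfin
  exact hfin

end Uniform

end Vale.Agent.P315.H855
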