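import Vale.Agent.P315.H381.RFam
import Vale.Agent.P315.H508.ClsM

/-!
P315, row C-H3: the classes of the machines in own rounds are the classes of the accounting
theorem in static blocks; a static block which has a class lies in the own rounds of the top.
-/

set_option autoImplicit false

open Finset

namespace Vale.Agent.P315.H855

open C H808 H381
open H801 (nodeD actD cdiv blo)
open H132 (cn)

section

variable {M ℓ μ B J S H n : ℕ} {vis hid : Leaf} {C : Chain (boxPar M ℓ μ B J S H) vis hid n}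
  {mc : Mach} {ω : Rnd} {η : ℝ} {smax : ℕ} {g : ℕ → ℕ}
  {hI : Inst (boxPar M ℓ μ B J S H) vis hid n η C} (N : BoxNum M ℓ μ smax g)
  (Z : ZFam (alongB C mc ω hI) smax (fun s Jv i b => (WB C mc ω g s Jv i b : ℝ))
      (fun s => 12 / g s) η)
  [Nonempty (Fin (M ^ n))] (hM : 0 < M) (lo : ℤ) (NB D0 : ℕ)
    (q : ℕ → ℕ) (hD0 : 0 < D0) (hn : 2 ^ smax ∣ n)
    (hq : ∀ j i, j < n → i < M ^ (n - j) → (alongB C mc ω hI).sft j i ≤ q j)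
    (hfin : (∑ l ∈ range n, (q l : ℤ)) ≤ lo + (NB * (16 ^ smax * D0) : ℕ))

omit [Nonempty (Fin (M ^ n))] in
include Z in
theorem WB_le {s a i : ℕ} (hs : s ≤ smax) (hj : a * 2 ^ s + 2 ^ s ≤ n)
    (hi : i < M ^ (n - (a * 2 ^ s + 2 ^ s))) {b b' : ℤ} (h : b ≤ b') :
    WB C mc ω g s (a * 2 ^ s + 2 ^ s) i b' ≤ WB C mc ω g s (a * 2 ^ s + 2 ^ s) i b := by
  have h1 : (WB C mc ω g s (a * 2 ^ s + 2 ^ s) i b' : ℝ) ≤
    WB C mc ω g s (a * 2 ^ s + 2 ^ s) i b := Z.anti s (a * 2 ^ s) i hs hj hi h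
  exact_mod_cast h1

omit N in
/-- The decrease of the value in a block. -/
theorem m_box (hw : ∀ i, C.w i = ℓ) {s a : ℕ} (hs : s ≤ smax) (hj : a * 2 ^ s + 2 ^ s ≤ n)
    (o : ℕ) (x : Fin (M ^ n)) (k : ℕ) :
    (Z.mach hM lo NB D0 q hD0 hn hq hfin).m o s a x k =
      ((WB C mc ω g s (a * 2 ^ s + 2 ^ s) ((x : ℕ) / M ^ (a * 2 ^ s + 2 ^ s))
          (lo - (alongB C mc ω hI).S (a * 2 ^ s + 2 ^ s) x + ((o + k * (16 ^ s * D0) : ℕ) : ℤ)) : ℝ) -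
        WB C mc ω g s (a * 2 ^ s + 2 ^ s) ((x : ℕ) / M ^ (a * 2 ^ s + 2 ^ s))
          (lo - (alongB C mc ω hI).S (a * 2 ^ s + 2 ^ s) x +
            ((o + (k + 1) * (16 ^ s * D0) : ℕ) : ℤ))) /
        ((M ^ 2 ^ s * (ℓ * M ^ (a * 2 ^ s)) : ℕ) : ℝ) := by
  have h1 := Z.mach_m hM lo NB D0 q hD0 hn hq hfin hs hj o x k
  refine h1.trans ?_
  have h2 := W_const (M := M) (n := n) (A := alongB C mc ω hI) (c := (ℓ : ℝ)) hw
    (a * 2 ^ s + 2 ^ s) ((x : ℕ) / M ^ (a * 2 ^ s + 2 ^ s))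
  rw [h2]
  have e1 : (ℓ : ℝ) * (M : ℝ) ^ (a * 2 ^ s + 2 ^ s) =
      ((M ^ 2 ^ s * (ℓ * M ^ (a * 2 ^ s)) : ℕ) : ℝ) := by
    push_cast
    rw [pow_add]
    ring
  rw [e1]
  congr 1
  have e2 : ∀ b : ℕ, (alongB C mc ω hI).own lo s a x b =
      lo - (alongB C mc ω hI).S (a * 2 ^ s + 2 ^ s) x + (b : ℤ) := by
    intro b
    unfold Along.own
    ring
  rw [e2, e2]
  rfl

omit N Z [Nonempty (Fin (M ^ n))] in
theorem neg_box {s a i : ℕ} {b b' : ℤ} (h : b < -((a * 2 ^ s : ℕ) : ℤ))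
    (h' : b' < -((a * 2 ^ s : ℕ) : ℤ)) :
    WB C mc ω g s (a * 2 ^ s + 2 ^ s) i b = WB C mc ω g s (a * 2 ^ s + 2 ^ s) i b' :=
  WB_neg h h'

omit N Z [Nonempty (Fin (M ^ n))] in
theorem nodeB_round (s a i κ : ℕ) :
    nodeD (M ^ 2 ^ s) (ℓ * M ^ (a * 2 ^ s)) (g s) μ B (C.lab (a * 2 ^ s + 2 ^ s) i)
      (hist (boxPar M ℓ μ B J S H) ω vis hid (rd (boxPar M ℓ μ B J S H) mc ω vis hid)
        (a * 2 ^ s + 2 ^ s) i (C.lab (a * 2 ^ s + 2 ^ s) i) s) κ =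
      nodeB C mc ω g s (a * 2 ^ s + 2 ^ s) i ((κ : ℤ) - H) := by
  have h := nodeB_hist (C := C) mc ω g s (a * 2 ^ s + 2 ^ s) i κ
  rw [Nat.add_sub_cancel] at h
  exact h

include N in
/-- **(A1)** The class test of the machine at the own block `j` is the class of the static block
`k = j - j0`. -/
theorem hcls_box (hw : ∀ i, C.w i = ℓ) {s a : ℕ} (hs : s ≤ smax) (hj : a * 2 ^ s + 2 ^ s ≤ n)
    (x : Fin (M ^ n)) {o off l : ℕ} {j0 : ℤ} (hH : n + 16 ^ s * D0 ≤ H)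
    (hj0 : j0 * ((16 ^ s * D0 : ℕ) : ℤ) =
      lo - (alongB C mc ω hI).S (a * 2 ^ s + 2 ^ s) x + H + o + off)
    {k j : ℕ} (hk : (j : ℤ) = k + j0) :
    actD (M ^ 2 ^ s + 2) (2 * M ^ 2 ^ s * g s + 1)
      (cn (M ^ 2 ^ s) (ℓ * M ^ (a * 2 ^ s))
        (C.lab (a * 2 ^ s + 2 ^ s) ((x : ℕ) / M ^ (a * 2 ^ s + 2 ^ s)))
        (ℓ * M ^ (a * 2 ^ s) / g s)
        (C.pos ((x : ℕ) / M ^ (a * 2 ^ s + 2 ^ s) * M ^ (a * 2 ^ s + 2 ^ s))) * M ^ 2 ^ s)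
      (cn (M ^ 2 ^ s) (ℓ * M ^ (a * 2 ^ s))
        (C.lab (a * 2 ^ s + 2 ^ s) ((x : ℕ) / M ^ (a * 2 ^ s + 2 ^ s)))
        (ℓ * M ^ (a * 2 ^ s) / g s)
        (C.pos (((x : ℕ) / M ^ (a * 2 ^ s + 2 ^ s) + 1) * M ^ (a * 2 ^ s + 2 ^ s))) * M ^ 2 ^ s)
      (16 ^ s * D0) off (cdiv (M ^ 2 ^ s * (ℓ * M ^ (a * 2 ^ s))) (2 ^ l))
      (cdiv (M ^ 2 ^ s * (ℓ * M ^ (a * 2 ^ s))) (2 ^ (l + 1)))
      (nodeD (M ^ 2 ^ s) (ℓ * M ^ (a * 2 ^ s)) (g s) μ B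
        (C.lab (a * 2 ^ s + 2 ^ s) ((x : ℕ) / M ^ (a * 2 ^ s + 2 ^ s)))
        (hist (boxPar M ℓ μ B J S H) ω vis hid (rd (boxPar M ℓ μ B J S H) mc ω vis hid)
          (a * 2 ^ s + 2 ^ s) ((x : ℕ) / M ^ (a * 2 ^ s + 2 ^ s))
          (C.lab (a * 2 ^ s + 2 ^ s) ((x : ℕ) / M ^ (a * 2 ^ s + 2 ^ s))) s)) j ↔
      H295.clsR (Z.mach hM lo NB D0 q hD0 hn hq hfin) (fun _ _ _ => 1) o s a l x k := by
  set i := (x : ℕ) / M ^ (a * 2 ^ s + 2 ^ s) with hi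
  have hi' : i < M ^ (n - (a * 2 ^ s + 2 ^ s)) := Along.quot_lt hM hj x
  have hD : 0 < 16 ^ s * D0 := Nat.mul_pos (by positivity) hD0
  have hjn : a * 2 ^ s ≤ n := le_trans (Nat.le_add_right _ _) hj
  have hL : ((16 ^ s * D0 : ℕ) : ℤ) - H ≤ -((a * 2 ^ s : ℕ) : ℤ) := by
    have h1 : ((n + 16 ^ s * D0 : ℕ) : ℤ) ≤ H := by exact_mod_cast hH
    have h2 : ((a * 2 ^ s : ℕ) : ℤ) ≤ n := by exact_mod_cast hjn
    rw [Nat.cast_add] at h1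
    linarith
  have hW : 0 < M ^ 2 ^ s * (ℓ * M ^ (a * 2 ^ s)) :=
    Nat.mul_pos (Nat.pow_pos hM) (Nat.mul_pos N.hℓ (Nat.pow_pos hM))
  have key := H508.cls_core (F := WB C mc ω g s (a * 2 ^ s + 2 ^ s) i)
    (L0 := -((a * 2 ^ s : ℕ) : ℤ)) (H := H)
    (fun b b' h => WB_le Z hs hj hi' h) (fun b b' h h' => neg_box h h') hL hD hj0 hW (l := l) hk
  unfold H295.clsR
  rw [one_mul, m_box Z hM lo NB D0 q hD0 hn hq hfin hw hs hj o x k]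
  refine Iff.trans ?_ key
  unfold actD
  rw [nodeB_round, nodeB_round]
  unfold WB
  rw [Nat.add_sub_cancel]

omit N in
/-- **(A2)** A static block which has a class starts after the own round `0`. -/
theorem hst_box (hw : ∀ i, C.w i = ℓ) {s a : ℕ} (hs : s ≤ smax) (hj : a * 2 ^ s + 2 ^ s ≤ n)
    (x : Fin (M ^ n)) {o off l : ℕ} {j0 : ℤ} (hH : n + 16 ^ s * D0 ≤ H)
    (hj0 : j0 * ((16 ^ s * D0 : ℕ) : ℤ) =
      lo - (alongB C mc ω hI).S (a * 2 ^ s + 2 ^ s) x + H + o + off) {k : ℕ}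
    (hc : H295.clsR (Z.mach hM lo NB D0 q hD0 hn hq hfin) (fun _ _ _ => 1) o s a l x k) :
    (off : ℤ) ≤ ((k : ℤ) + j0) * ((16 ^ s * D0 : ℕ) : ℤ) := by
  set i := (x : ℕ) / M ^ (a * 2 ^ s + 2 ^ s) with hi
  have hjn : a * 2 ^ s ≤ n := le_trans (Nat.le_add_right _ _) hj
  have hL : ((16 ^ s * D0 : ℕ) : ℤ) - H ≤ -((a * 2 ^ s : ℕ) : ℤ) := by
    have h1 : ((n + 16 ^ s * D0 : ℕ) : ℤ) ≤ H := by exact_mod_cast hH
    have h2 : ((a * 2 ^ s : ℕ) : ℤ) ≤ n := by exact_mod_cast hjn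
    rw [Nat.cast_add] at h1
    linarith
  by_contra hcon
  have h1 := H508.drop_zero (F := WB C mc ω g s (a * 2 ^ s + 2 ^ s) i)
    (L0 := -((a * 2 ^ s : ℕ) : ℤ)) (H := H) (fun b b' h h' => neg_box h h') hL hj0
    (not_le.1 hcon)
  have h2 := hc.1
  rw [one_mul, m_box Z hM lo NB D0 q hD0 hn hq hfin hw hs hj o x k, h1, sub_self,
    zero_div] at h2
  have : (0 : ℝ) < (1 / 2) ^ (l + 1) := by positivity
  linarith

end

/-- **(A3)** The cap of the class is at most `22` times the decrease. -/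
theorem hC_box {Tu l : ℕ} {m : ℝ} (hT : 2 ^ l ≤ Tu) (hm : (1 / 2 : ℝ) ^ (l + 1) ≤ m) :
    (cdiv (10 * Tu) (2 ^ l) : ℝ) / Tu ≤ 22 * m := by
  have h2 : (0 : ℝ) < 2 ^ l := by positivity
  have hT' : (2 : ℝ) ^ l ≤ Tu := by exact_mod_cast hT
  have hTp : (0 : ℝ) < Tu := lt_of_lt_of_le h2 hT'
  have h1 : (cdiv (10 * Tu) (2 ^ l) : ℝ) ≤ 10 * Tu / 2 ^ l + 1 := by
    unfold cdiv
    refine Nat.cast_div_le.trans ?_
    push_cast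
    rw [div_add_one h2.ne']
    refine div_le_div_of_nonneg_right ?_ h2.le
    have h3 : ((10 * Tu + 2 ^ l - 1 : ℕ) : ℝ) ≤ ((10 * Tu + 2 ^ l : ℕ) : ℝ) := by
      exact_mod_cast Nat.sub_le _ _
    push_cast at h3
    exact h3
  rw [div_le_iff₀ hTp]
  have h4 : (1 : ℝ) ≤ Tu / 2 ^ l := by rwa [le_div_iff₀ h2, one_mul]
  have h5 : 22 * (1 / 2 : ℝ) ^ (l + 1) * Tu = 11 * (Tu / 2 ^ l) := by
    rw [one_div_pow, pow_succ]
    field_simp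
    ring
  have h6 : 22 * (1 / 2 : ℝ) ^ (l + 1) * Tu ≤ 22 * m * Tu := by
    have := mul_le_mul_of_nonneg_left hm (by norm_num : (0 : ℝ) ≤ 22)
    exact mul_le_mul_of_nonneg_right this hTp.le
  have h7 : (10 : ℝ) * Tu / 2 ^ l = 10 * (Tu / 2 ^ l) := by ring
  linarith

end Vale.Agent.P315.H855
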