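import Mathlib

/-! The online lemma with blocks and restarts (PROOF.md of helper476, part B, and hypothesis (H3b)
of part A): rows with state `y`, played row distributions `x` (a flow) with the certificate (TP),
the update `x (1 + l w)`, the mixing `(1-ζ) y_end + ζ y_start` after every active block, `h`
interleaved phases. Everything is stated for one fixed path `pe`. -/

set_option autoImplicit false

namespace Vale.Agent.P315.H855

open Finset

variable {ι E : Type*}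

/-- Cost of the path `pe` with respect to the table `D`. -/
noncomputable def pc (I : Finset ι) (a : ι → ℝ) (pe : ι → E) (D : ι → E → ℝ) : ℝ :=
  ∑ i ∈ I, a i * D i (pe i)

/-- Cost of the row distributions `x`. -/
noncomputable def fc (I : Finset ι) (a : ι → ℝ) (A : ι → Finset E) (x D : ι → E → ℝ) : ℝ :=
  ∑ i ∈ I, a i * ∑ e ∈ A i, x i e * D i e

/-- Potential of the path `pe` in the state `y`. -/
noncomputable def pot (I : Finset ι) (a : ι → ℝ) (pe : ι → E) (y : ι → E → ℝ) : ℝ :=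
  ∑ i ∈ I, a i * (- Real.log (y i (pe i)))

theorem pot_nonneg {I : Finset ι} {a : ι → ℝ} {pe : ι → E} {y : ι → E → ℝ}
    (ha : ∀ i ∈ I, 0 ≤ a i) (h0 : ∀ i ∈ I, 0 ≤ y i (pe i)) (h1 : ∀ i ∈ I, y i (pe i) ≤ 1) :
    0 ≤ pot I a pe y :=
  Finset.sum_nonneg fun i hi => mul_nonneg (ha i hi)
    (neg_nonneg.2 (Real.log_nonpos (h0 i hi) (h1 i hi)))

theorem log_one_add_ge {t : ℝ} (h0 : 0 ≤ t) (h1 : t ≤ 1) : 2 / 3 * t ≤ Real.log (1 + t) := by
  have hc := (strictConcaveOn_log_Ioi.concaveOn).2 (Set.mem_Ioi.2 (zero_lt_one (α := ℝ)))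
    (Set.mem_Ioi.2 (zero_lt_two (α := ℝ))) (sub_nonneg.2 h1) h0 (by ring)
  simp only [smul_eq_mul, Real.log_one, mul_zero, zero_add, mul_one] at hc
  have h2 : (0.6931471803 : ℝ) < Real.log 2 := Real.log_two_gt_d9
  have h3 : (1 - t) + t * 2 = 1 + t := by ring
  rw [h3] at hc
  nlinarith

/-- A lower bound for the state by a multiple of another state bounds the potential. -/
theorem pot_mix {I : Finset ι} {a : ι → ℝ} {pe : ι → E} {y y' : ι → E → ℝ} {c : ℝ} (hc : 0 < c)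
    (ha : ∀ i ∈ I, 0 ≤ a i) (hy : ∀ i ∈ I, 0 < y i (pe i))
    (h : ∀ i ∈ I, c * y i (pe i) ≤ y' i (pe i)) :
    pot I a pe y' ≤ pot I a pe y + (∑ i ∈ I, a i) * (- Real.log c) := by
  unfold pot
  rw [Finset.sum_mul, ← Finset.sum_add_distrib]
  refine Finset.sum_le_sum fun i hi => ?_
  rw [← mul_add]
  refine mul_le_mul_of_nonneg_left ?_ (ha i hi)
  have h1 := Real.log_le_log (mul_pos hc (hy i hi)) (h i hi)
  rw [Real.log_mul hc.ne' (hy i hi).ne'] at h1
  linarith

/-- **One round** from the certificate (TP): `x` is played at costs `D`, `D' ≤ D` are the costs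
seen by the lane, `w ≤ D - D'` is the clipped decrease, and `y'` is at least `(1-ε)` times the
normalised `x (1 + l w)`. -/
theorem round {I : Finset ι} {a : ι → ℝ} {A : ι → Finset E} {pe : ι → E}
    {x y y' D D' w : ι → E → ℝ} {l η ε : ℝ} (hl : 0 < l) (hε : ε < 1)
    (ha : ∀ i ∈ I, 0 ≤ a i) (hpe : ∀ i ∈ I, pe i ∈ A i)
    (hx : ∀ i ∈ I, ∀ e ∈ A i, 0 ≤ x i e) (hxp : ∀ i ∈ I, 0 < x i (pe i))
    (hw0 : ∀ i ∈ I, ∀ e ∈ A i, 0 ≤ w i e) (hwl : ∀ i ∈ I, l * w i (pe i) ≤ 1)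
    (hwD : ∀ i ∈ I, ∀ e ∈ A i, w i e ≤ D i e - D' i e)
    (hy' : ∀ i ∈ I,
      (1 - ε) * (x i (pe i) * (1 + l * w i (pe i)) / (1 + l * ∑ f ∈ A i, x i f * w i f))
        ≤ y' i (pe i))
    (htp : pot I a pe x ≤ pot I a pe y + l * (pc I a pe D - fc I a A x D) + η) :
    pot I a pe y' + 2 / 3 * l * pc I a pe w ≤
      pot I a pe y + l * (pc I a pe D - fc I a A x D') + η
        + (∑ i ∈ I, a i) * (- Real.log (1 - ε)) := by
  have hε' : 0 < 1 - ε := by linarith
  have key : ∀ i ∈ I, - Real.log (y' i (pe i)) ≤ - Real.log (x i (pe i))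
      - 2 / 3 * l * w i (pe i) + l * (∑ f ∈ A i, x i f * w i f) + (- Real.log (1 - ε)) := by
    intro i hi
    set S := ∑ f ∈ A i, x i f * w i f with hS
    have hS0 : 0 ≤ S := Finset.sum_nonneg fun f hf => mul_nonneg (hx i hi f hf) (hw0 i hi f hf)
    have hZ : 0 < 1 + l * S := by nlinarith [mul_nonneg hl.le hS0]
    have hlogZ : Real.log (1 + l * S) ≤ l * S := by
      have := Real.log_le_sub_one_of_pos hZ
      linarith
    have hwe := hw0 i hi _ (hpe i hi)
    have h1w : 0 < 1 + l * w i (pe i) := by nlinarith [mul_nonneg hl.le hwe]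
    have hxe := hxp i hi
    have hlow : 0 < (1 - ε) * (x i (pe i) * (1 + l * w i (pe i)) / (1 + l * S)) := by positivity
    have hlog := Real.log_le_log hlow (hy' i hi)
    rw [Real.log_mul hε'.ne' (by positivity), Real.log_div (by positivity) hZ.ne',
      Real.log_mul hxe.ne' h1w.ne'] at hlog
    have hge := log_one_add_ge (mul_nonneg hl.le hwe) (hwl i hi)
    linarith
  have h1 : pot I a pe y' ≤ pot I a pe x - 2 / 3 * l * pc I a pe w + l * fc I a A x w
      + (∑ i ∈ I, a i) * (- Real.log (1 - ε)) := by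
    unfold pot pc fc
    rw [Finset.mul_sum, Finset.mul_sum, Finset.sum_mul, ← Finset.sum_sub_distrib,
      ← Finset.sum_add_distrib, ← Finset.sum_add_distrib]
    refine Finset.sum_le_sum fun i hi => ?_
    have := mul_le_mul_of_nonneg_left (key i hi) (ha i hi)
    linarith
  have h2 : fc I a A x w ≤ fc I a A x D - fc I a A x D' := by
    unfold fc
    rw [← Finset.sum_sub_distrib]
    refine Finset.sum_le_sum fun i hi => ?_
    rw [← mul_sub, ← Finset.sum_sub_distrib]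
    refine mul_le_mul_of_nonneg_left (Finset.sum_le_sum fun e he => ?_) (ha i hi)
    have := mul_le_mul_of_nonneg_left (hwD i hi e he) (hx i hi e he)
    linarith
  have h3 := mul_le_mul_of_nonneg_left h2 hl.le
  linarith

/-- All rounds of one block. -/
theorem block {I : Finset ι} {a : ι → ℝ} {A : ι → Finset E} {pe : ι → E}
    {x y D D' w : ℕ → ι → E → ℝ} {l η ε : ℝ} {n : ℕ} (hl : 0 < l) (hε : ε < 1)
    (ha : ∀ i ∈ I, 0 ≤ a i) (hpe : ∀ i ∈ I, pe i ∈ A i)
    (hx : ∀ r < n, ∀ i ∈ I, ∀ e ∈ A i, 0 ≤ x r i e) (hxp : ∀ r < n, ∀ i ∈ I, 0 < x r i (pe i))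
    (hw0 : ∀ r < n, ∀ i ∈ I, ∀ e ∈ A i, 0 ≤ w r i e)
    (hwl : ∀ r < n, ∀ i ∈ I, l * w r i (pe i) ≤ 1)
    (hwD : ∀ r < n, ∀ i ∈ I, ∀ e ∈ A i, w r i e ≤ D r i e - D' r i e)
    (hy' : ∀ r < n, ∀ i ∈ I,
      (1 - ε) * (x r i (pe i) * (1 + l * w r i (pe i)) / (1 + l * ∑ f ∈ A i, x r i f * w r i f))
        ≤ y (r + 1) i (pe i))
    (htp : ∀ r < n, pot I a pe (x r) ≤
      pot I a pe (y r) + l * (pc I a pe (D r) - fc I a A (x r) (D r)) + η) :
    pot I a pe (y n) + 2 / 3 * l * ∑ r ∈ range n, pc I a pe (w r) ≤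
      pot I a pe (y 0) + l * ∑ r ∈ range n, (pc I a pe (D r) - fc I a A (x r) (D' r))
        + n * (η + (∑ i ∈ I, a i) * (- Real.log (1 - ε))) := by
  have step : ∀ m ≤ n, pot I a pe (y m) + 2 / 3 * l * ∑ r ∈ range m, pc I a pe (w r) ≤
      pot I a pe (y 0) + l * ∑ r ∈ range m, (pc I a pe (D r) - fc I a A (x r) (D' r))
        + m * (η + (∑ i ∈ I, a i) * (- Real.log (1 - ε))) := by
    intro m
    induction m with
    | zero => intro _; simp
    | succ m ih =>
      intro hm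
      have hmn : m < n := hm
      have h1 := ih hmn.le
      have h2 := round (I := I) (a := a) (A := A) (pe := pe) (x := x m) (y := y m)
        (y' := y (m + 1)) (D := D m) (D' := D' m) (w := w m) (l := l) (η := η) (ε := ε)
        hl hε ha hpe (hx m hmn) (hxp m hmn) (hw0 m hmn) (hwl m hmn) (hwD m hmn) (hy' m hmn)
        (htp m hmn)
      rw [Finset.sum_range_succ, Finset.sum_range_succ, mul_add, mul_add]
      push_cast
      linarith
  exact step n le_rfl

/-- Telescoping of the potential over blocks: `act` = active blocks, `S ⊆ act` the blocks whose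
regret is used, `act \ S` the blocks that only pay the restart cost `c2`. -/
theorem telescope {N : ℕ} {Φ Φe ρ g : ℕ → ℝ} {act S : Finset ℕ} {κ c1 c2 : ℝ} (hS : S ⊆ act)
    (hact : act ⊆ range N)
    (h1 : ∀ j ∈ S, Φe j + κ * ρ j ≤ Φ j + g j) (h2 : ∀ j ∈ S, Φ (j + 1) ≤ Φe j + c1)
    (h3 : ∀ j ∈ act \ S, Φ (j + 1) ≤ Φ j + c2) (h4 : ∀ j < N, j ∉ act → Φ (j + 1) ≤ Φ j)
    (h5 : 0 ≤ Φ N) :
    κ * ∑ j ∈ S, ρ j ≤ Φ 0 + ∑ j ∈ S, g j + S.card * c1 + (act \ S).card * c2 := by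
  classical
  have step : ∀ m ≤ N, Φ m + κ * ∑ j ∈ S.filter (· < m), ρ j ≤
      Φ 0 + ∑ j ∈ S.filter (· < m), g j + (S.filter (· < m)).card * c1
        + ((act \ S).filter (· < m)).card * c2 := by
    intro m
    induction m with
    | zero => intro _; simp
    | succ m ih =>
      intro hm
      have hmN : m < N := hm
      have ih := ih hmN.le
      have hins : ∀ T : Finset ℕ, m ∈ T →
          T.filter (· < m + 1) = insert m (T.filter (· < m)) := by
        intro T hT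
        ext k
        simp only [mem_filter, mem_insert]
        constructor
        · rintro ⟨h, h'⟩
          rcases Nat.lt_succ_iff_lt_or_eq.1 h' with h'' | h''
          · exact Or.inr ⟨h, h''⟩
          · exact Or.inl h''
        · rintro (h | ⟨h, h'⟩)
          · subst h; exact ⟨hT, Nat.lt_succ_self _⟩
          · exact ⟨h, Nat.lt_succ_of_lt h'⟩
      have hnin : ∀ T : Finset ℕ, m ∉ T → T.filter (· < m + 1) = T.filter (· < m) := by
        intro T hT
        ext k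
        simp only [mem_filter]
        constructor
        · rintro ⟨h, h'⟩
          rcases Nat.lt_succ_iff_lt_or_eq.1 h' with h'' | h''
          · exact ⟨h, h''⟩
          · subst h''; exact absurd h hT
        · rintro ⟨h, h'⟩
          exact ⟨h, Nat.lt_succ_of_lt h'⟩
      have hnm : ∀ T : Finset ℕ, m ∉ T.filter (· < m) := fun T => by simp
      by_cases hmS : m ∈ S
      · have hmA : m ∉ act \ S := by simp [hmS]
        rw [hins S hmS, hnin (act \ S) hmA, Finset.sum_insert (hnm S), Finset.sum_insert (hnm S),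
          Finset.card_insert_of_notMem (hnm S)]
        have e1 := h1 m hmS
        have e2 := h2 m hmS
        push_cast
        linarith
      · by_cases hma : m ∈ act
        · have hmA : m ∈ act \ S := by simp [hmS, hma]
          rw [hnin S hmS, hins (act \ S) hmA, Finset.card_insert_of_notMem (hnm _)]
          have e3 := h3 m hmA
          push_cast
          linarith
        · have hmA : m ∉ act \ S := by simp [hma]
          rw [hnin S hmS, hnin (act \ S) hmA]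
          have e4 := h4 m hmN hma
          linarith
  have h := step N le_rfl
  have f1 : S.filter (· < N) = S := by
    apply Finset.filter_true_of_mem
    intro j hj
    exact Finset.mem_range.1 (hact (hS hj))
  have f2 : (act \ S).filter (· < N) = act \ S := by
    apply Finset.filter_true_of_mem
    intro j hj
    exact Finset.mem_range.1 (hact (Finset.mem_sdiff.1 hj).1)
  rw [f1, f2] at h
  linarith

/-- One phase of a machine: `N` blocks, `n` rounds in every block, state `ys j` at the start of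
block `j`. -/
theorem phase {I : Finset ι} {a : ι → ℝ} {A : ι → Finset E} {pe : ι → E}
    {x y D D' w : ℕ → ℕ → ι → E → ℝ} {ys : ℕ → ι → E → ℝ} {l η ε ζ : ℝ} {n N : ℕ}
    {act S : Finset ℕ} (hl : 0 < l) (hε : ε < 1) (hζ0 : 0 < ζ) (hζ1 : ζ < 1) (hS : S ⊆ act)
    (hact : act ⊆ range N)
    (ha : ∀ i ∈ I, 0 ≤ a i) (ha1 : ∑ i ∈ I, a i = 1) (hpe : ∀ i ∈ I, pe i ∈ A i)
    (hx : ∀ j ∈ S, ∀ r < n, ∀ i ∈ I, ∀ e ∈ A i, 0 ≤ x j r i e)
    (hxp : ∀ j ∈ S, ∀ r < n, ∀ i ∈ I, 0 < x j r i (pe i))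
    (hw0 : ∀ j ∈ S, ∀ r < n, ∀ i ∈ I, ∀ e ∈ A i, 0 ≤ w j r i e)
    (hwl : ∀ j ∈ S, ∀ r < n, ∀ i ∈ I, l * w j r i (pe i) ≤ 1)
    (hwD : ∀ j ∈ S, ∀ r < n, ∀ i ∈ I, ∀ e ∈ A i, w j r i e ≤ D j r i e - D' j r i e)
    (hy' : ∀ j ∈ S, ∀ r < n, ∀ i ∈ I,
      (1 - ε) * (x j r i (pe i) * (1 + l * w j r i (pe i)) /
        (1 + l * ∑ f ∈ A i, x j r i f * w j r i f)) ≤ y j (r + 1) i (pe i))
    (htp : ∀ j ∈ S, ∀ r < n, pot I a pe (x j r) ≤
      pot I a pe (y j r) + l * (pc I a pe (D j r) - fc I a A (x j r) (D j r)) + η)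
    (hy0 : ∀ j ∈ S, ∀ i ∈ I, y j 0 i (pe i) = ys j i (pe i))
    (hyn : ∀ j ∈ S, ∀ i ∈ I, 0 < y j n i (pe i))
    (hys : ∀ j ≤ N, ∀ i ∈ I, 0 < ys j i (pe i)) (hys1 : ∀ i ∈ I, ys N i (pe i) ≤ 1)
    (hmixe : ∀ j ∈ S, ∀ i ∈ I, (1 - ζ) * y j n i (pe i) ≤ ys (j + 1) i (pe i))
    (hmixs : ∀ j ∈ act, ∀ i ∈ I, ζ * ys j i (pe i) ≤ ys (j + 1) i (pe i))
    (hidle : ∀ j < N, j ∉ act → ∀ i ∈ I, ys (j + 1) i (pe i) = ys j i (pe i)) :
    2 / 3 * l * ∑ j ∈ S, ∑ r ∈ range n, pc I a pe (w j r) ≤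
      pot I a pe (ys 0)
        + l * ∑ j ∈ S, ∑ r ∈ range n, (pc I a pe (D j r) - fc I a A (x j r) (D' j r))
        + S.card * (n * (η + (- Real.log (1 - ε))) + (- Real.log (1 - ζ)))
        + (act \ S).card * (- Real.log ζ) := by
  have h := telescope (N := N) (Φ := fun j => pot I a pe (ys j))
    (Φe := fun j => pot I a pe (y j n)) (ρ := fun j => ∑ r ∈ range n, pc I a pe (w j r))
    (g := fun j => l * ∑ r ∈ range n, (pc I a pe (D j r) - fc I a A (x j r) (D' j r))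
      + n * (η + (- Real.log (1 - ε)))) (act := act) (S := S) (κ := 2 / 3 * l)
    (c1 := - Real.log (1 - ζ)) (c2 := - Real.log ζ) hS hact ?_ ?_ ?_ ?_ ?_
  · rw [Finset.sum_add_distrib, ← Finset.mul_sum, Finset.sum_const, nsmul_eq_mul] at h
    rw [mul_add]
    linarith
  · intro j hj
    have hb := block (I := I) (a := a) (A := A) (pe := pe) (x := x j) (y := y j) (D := D j)
      (D' := D' j) (w := w j) (l := l) (η := η) (ε := ε) (n := n) hl hε ha hpe (hx j hj)
      (hxp j hj) (hw0 j hj) (hwl j hj) (hwD j hj) (hy' j hj) (htp j hj)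
    have e0 : pot I a pe (y j 0) = pot I a pe (ys j) := by
      unfold pot
      exact Finset.sum_congr rfl fun i hi => by rw [hy0 j hj i hi]
    rw [ha1, one_mul, e0] at hb
    show pot I a pe (y j n) + 2 / 3 * l * _ ≤ pot I a pe (ys j) + (_ + _)
    linarith
  · intro j hj
    have := pot_mix (I := I) (a := a) (pe := pe) (c := 1 - ζ) (by linarith) ha (hyn j hj)
      (hmixe j hj)
    rw [ha1, one_mul] at this
    exact this
  · intro j hj
    have hja := (Finset.mem_sdiff.1 hj).1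
    have hjN : j < N := Finset.mem_range.1 (hact hja)
    have := pot_mix (I := I) (a := a) (pe := pe) (c := ζ) hζ0 ha (hys j hjN.le) (hmixs j hja)
    rw [ha1, one_mul] at this
    exact this
  · intro j hj hja
    refine le_of_eq ?_
    show pot I a pe (ys (j + 1)) = pot I a pe (ys j)
    unfold pot
    exact Finset.sum_congr rfl fun i hi => by rw [hidle j hj hja i hi]
  · exact pot_nonneg ha (fun i hi => (hys N le_rfl i hi).le) hys1

/-- The indices `β` with `[β, β + h) ⊆ [0, D)`, sorted into phases and rounds. -/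
theorem sum_phases (h D : ℕ) (hh : 0 < h) (f : ℕ → ℝ) :
    ∑ p ∈ range h, ∑ r ∈ range ((D - p) / h), f (p + r * h) =
      ∑ β ∈ (range D).filter (fun β => β + h ≤ D), f β := by
  rw [Finset.sum_sigma']
  refine Finset.sum_nbij' (fun q => q.1 + q.2 * h) (fun β => ⟨β % h, β / h⟩) ?_ ?_ ?_ ?_ ?_
  · rintro ⟨p, r⟩ hq
    simp only [mem_sigma, mem_range] at hq
    obtain ⟨hp, hr⟩ := hq
    have h1 : (r + 1) * h ≤ D - p := (Nat.le_div_iff_mul_le hh).1 hr
    have h2 : (r + 1) * h = r * h + h := by ring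
    simp only [mem_filter, mem_range]
    omega
  · intro β hβ
    simp only [mem_filter, mem_range] at hβ
    simp only [mem_sigma, mem_range]
    refine ⟨Nat.mod_lt _ hh, ?_⟩
    have h1 := Nat.mod_add_div β h
    have h2 : (β / h + 1) * h = h * (β / h) + h := by ring
    have h3 : β / h + 1 ≤ (D - β % h) / h := (Nat.le_div_iff_mul_le hh).2 (by omega)
    exact h3
  · rintro ⟨p, r⟩ hq
    simp only [mem_sigma, mem_range] at hq
    obtain ⟨hp, hr⟩ := hq
    have h1 : (p + r * h) % h = p := by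
      rw [Nat.add_mul_mod_self_right, Nat.mod_eq_of_lt hp]
    have h2 : (p + r * h) / h = r := by
      rw [Nat.add_mul_div_right _ _ hh, Nat.div_eq_of_lt hp, zero_add]
    simp only [h1, h2]
  · intro β _
    show β % h + β / h * h = β
    have := Nat.mod_add_div β h
    rw [mul_comm] at this
    exact this
  · intro q _
    rfl

theorem card_phases (h D : ℕ) (hh : 0 < h) :
    ((∑ p ∈ range h, (D - p) / h : ℕ) : ℝ) ≤ D := by
  have h1 := sum_phases h D hh (fun _ => 1)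
  simp only [Finset.sum_const, card_range, nsmul_eq_mul, mul_one] at h1
  push_cast
  rw [h1]
  have : ((range D).filter (fun β => β + h ≤ D)).card ≤ D := by
    calc _ ≤ (range D).card := Finset.card_filter_le _ _
      _ = D := card_range D
  exact_mod_cast this

/-- **(H3b) of PROOF.md**, one machine (all `h` phases, one class). `C k i e` = cost of the edge
`e` of unit `i` at static index `k`, `c k` = certified cost of the region at static index `k`,
block `j` = `[b0 j, b0 j + Dl)`, `cap` = the cap of the class, `act` = the blocks of the class,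
`S` = any subset of them. Units whose drop over the block exceeds `cap` are not counted. -/
theorem h3b {I : Finset ι} {a : ι → ℝ} {A : ι → Finset E} {pe : ι → E}
    {C : ℕ → ι → E → ℝ} {c : ℕ → ℝ} {x y : ℕ → ℕ → ℕ → ι → E → ℝ} {ys : ℕ → ℕ → ι → E → ℝ}
    {cap η ε ζ δ Φ0 : ℝ} {h Dl N : ℕ} {b0 : ℕ → ℕ} {act S : Finset ℕ}
    (hcap : 0 < cap) (hh : 0 < h) (hη : 0 ≤ η) (hδ : 0 ≤ δ) (hε0 : 0 ≤ ε) (hε : ε < 1)
    (hζ0 : 0 < ζ) (hζ1 : ζ < 1) (hS : S ⊆ act) (hact : act ⊆ range N)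
    (ha : ∀ i ∈ I, 0 ≤ a i) (ha1 : ∑ i ∈ I, a i = 1) (hpe : ∀ i ∈ I, pe i ∈ A i)
    (hC : ∀ i ∈ I, ∀ e ∈ A i, Antitone fun k => C k i e)
    (hx : ∀ p < h, ∀ j ∈ S, ∀ r < (Dl - p) / h, ∀ i ∈ I, ∀ e ∈ A i, 0 ≤ x p j r i e)
    (hxp : ∀ p < h, ∀ j ∈ S, ∀ r < (Dl - p) / h, ∀ i ∈ I, 0 < x p j r i (pe i))
    (hy' : ∀ p < h, ∀ j ∈ S, ∀ r < (Dl - p) / h, ∀ i ∈ I,
      (1 - ε) * (x p j r i (pe i) *
        (1 + cap⁻¹ * min (C (b0 j + (p + r * h)) i (pe i) - C (b0 j + (p + r * h) + h) i (pe i))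
          cap) /
        (1 + cap⁻¹ * ∑ f ∈ A i, x p j r i f *
          min (C (b0 j + (p + r * h)) i f - C (b0 j + (p + r * h) + h) i f) cap))
        ≤ y p j (r + 1) i (pe i))
    (htp : ∀ p < h, ∀ j ∈ S, ∀ r < (Dl - p) / h, pot I a pe (x p j r) ≤
      pot I a pe (y p j r) + cap⁻¹ * (pc I a pe (C (b0 j + (p + r * h)))
        - fc I a A (x p j r) (C (b0 j + (p + r * h)))) + η)
    (hy0 : ∀ p < h, ∀ j ∈ S, ∀ i ∈ I, y p j 0 i (pe i) = ys p j i (pe i))
    (hyn : ∀ p < h, ∀ j ∈ S, ∀ i ∈ I, 0 < y p j ((Dl - p) / h) i (pe i))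
    (hys : ∀ p < h, ∀ j ≤ N, ∀ i ∈ I, 0 < ys p j i (pe i))
    (hys1 : ∀ p < h, ∀ i ∈ I, ys p N i (pe i) ≤ 1)
    (hmixe : ∀ p < h, ∀ j ∈ S, ∀ i ∈ I,
      (1 - ζ) * y p j ((Dl - p) / h) i (pe i) ≤ ys p (j + 1) i (pe i))
    (hmixs : ∀ p < h, ∀ j ∈ act, ∀ i ∈ I, ζ * ys p j i (pe i) ≤ ys p (j + 1) i (pe i))
    (hidle : ∀ p < h, ∀ j < N, j ∉ act → ∀ i ∈ I, ys p (j + 1) i (pe i) = ys p j i (pe i))
    (hΦ0 : ∀ p < h, pot I a pe (ys p 0) ≤ Φ0)
    (hG : ∀ j ∈ S, ∀ β < Dl, c (b0 j + β) ≤ pc I a pe (C (b0 j + β)))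
    (hc : ∀ p < h, ∀ j ∈ S, ∀ r < (Dl - p) / h,
      c (b0 j + (p + r * h)) ≤ fc I a A (x p j r) (C (b0 j + (p + r * h) + h)) + δ) :
    ∑ j ∈ S, ∑ β ∈ (range Dl).filter (fun β => β + h ≤ Dl),
      ∑ i ∈ I.filter (fun i => C (b0 j) i (pe i) - C (b0 j + Dl) i (pe i) ≤ cap),
        a i * (C (b0 j + β) i (pe i) - C (b0 j + β + h) i (pe i)) ≤
      3 / 2 * ∑ j ∈ S, ∑ β ∈ range Dl, (pc I a pe (C (b0 j + β)) - c (b0 j + β))
        + 3 / 2 * cap * h * Φ0
        + S.card * (3 / 2 * (Dl * δ + cap * (Dl * (η + (- Real.log (1 - ε)))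
          + h * (- Real.log (1 - ζ)))))
        + (act \ S).card * (3 / 2 * cap * h * (- Real.log ζ)) := by
  classical
  have hl : 0 < cap⁻¹ := inv_pos.2 hcap
  have hlc : cap⁻¹ * cap = 1 := inv_mul_cancel₀ hcap.ne'
  have hlε : 0 ≤ - Real.log (1 - ε) := neg_nonneg.2 (Real.log_nonpos (by linarith) (by linarith))
  have hlζ : 0 ≤ - Real.log (1 - ζ) := neg_nonneg.2 (Real.log_nonpos (by linarith) (by linarith))
  have hlζ' : 0 ≤ - Real.log ζ := neg_nonneg.2 (Real.log_nonpos hζ0.le hζ1.le)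
  -- the counted mass is at most the clipped drops
  have hmass : ∀ j ∈ S, ∀ β, β + h ≤ Dl →
      ∑ i ∈ I.filter (fun i => C (b0 j) i (pe i) - C (b0 j + Dl) i (pe i) ≤ cap),
        a i * (C (b0 j + β) i (pe i) - C (b0 j + β + h) i (pe i)) ≤
      pc I a pe (fun i e => min (C (b0 j + β) i e - C (b0 j + β + h) i e) cap) := by
    intro j _ β hβ
    unfold pc
    refine (Finset.sum_le_sum (g := fun i => a i *
      min (C (b0 j + β) i (pe i) - C (b0 j + β + h) i (pe i)) cap) fun i hi => ?_).trans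
      (Finset.sum_le_sum_of_subset_of_nonneg (Finset.filter_subset _ _) fun i hi _ => ?_)
    · obtain ⟨hi, hic⟩ := Finset.mem_filter.1 hi
      refine mul_le_mul_of_nonneg_left (le_min le_rfl ?_) (ha i hi)
      have h1 := hC i hi _ (hpe i hi) (show b0 j ≤ b0 j + β by omega)
      have h2 := hC i hi _ (hpe i hi) (show b0 j + β + h ≤ b0 j + Dl by omega)
      simp only at h1 h2
      linarith
    · refine mul_nonneg (ha i hi) (le_min ?_ hcap.le)
      have h1 := hC i hi _ (hpe i hi) (show b0 j + β ≤ b0 j + β + h by omega)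
      simp only at h1
      linarith
  -- every phase
  have hph : ∀ p < h, ∑ j ∈ S, ∑ r ∈ range ((Dl - p) / h),
      ∑ i ∈ I.filter (fun i => C (b0 j) i (pe i) - C (b0 j + Dl) i (pe i) ≤ cap),
        a i * (C (b0 j + (p + r * h)) i (pe i) - C (b0 j + (p + r * h) + h) i (pe i)) ≤
      3 / 2 * ∑ j ∈ S, ∑ r ∈ range ((Dl - p) / h),
        ((pc I a pe (C (b0 j + (p + r * h))) - c (b0 j + (p + r * h))) + δ)
      + 3 / 2 * cap * Φ0
      + S.card * (3 / 2 * cap * (((Dl - p) / h : ℕ) * (η + (- Real.log (1 - ε)))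
        + (- Real.log (1 - ζ))))
      + (act \ S).card * (3 / 2 * cap * (- Real.log ζ)) := by
    intro p hp
    have hrk : ∀ r, r < (Dl - p) / h → p + r * h + h ≤ Dl := by
      intro r hr
      have h1 : (r + 1) * h ≤ Dl - p := (Nat.le_div_iff_mul_le hh).1 hr
      have h2 : (r + 1) * h = r * h + h := by ring
      omega
    have h1 := phase (I := I) (a := a) (A := A) (pe := pe) (x := x p) (y := y p)
      (D := fun j r => C (b0 j + (p + r * h))) (D' := fun j r => C (b0 j + (p + r * h) + h))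
      (w := fun j r i e => min (C (b0 j + (p + r * h)) i e - C (b0 j + (p + r * h) + h) i e) cap)
      (ys := ys p) (l := cap⁻¹) (η := η) (ε := ε) (ζ := ζ) (n := (Dl - p) / h) (N := N)
      (act := act) (S := S) hl hε hζ0 hζ1 hS hact ha ha1 hpe (hx p hp) (hxp p hp) ?_ ?_ ?_
      (hy' p hp) (htp p hp) (hy0 p hp) (hyn p hp) (hys p hp) (hys1 p hp) (hmixe p hp)
      (hmixs p hp) (hidle p hp)
    · have h2 : ∑ j ∈ S, ∑ r ∈ range ((Dl - p) / h),
          ∑ i ∈ I.filter (fun i => C (b0 j) i (pe i) - C (b0 j + Dl) i (pe i) ≤ cap),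
            a i * (C (b0 j + (p + r * h)) i (pe i) - C (b0 j + (p + r * h) + h) i (pe i)) ≤
          ∑ j ∈ S, ∑ r ∈ range ((Dl - p) / h), pc I a pe
            (fun i e => min (C (b0 j + (p + r * h)) i e - C (b0 j + (p + r * h) + h) i e) cap) :=
        Finset.sum_le_sum fun j hj => Finset.sum_le_sum fun r hr =>
          hmass j hj (p + r * h) (hrk r (Finset.mem_range.1 hr))
      have h3 : ∑ j ∈ S, ∑ r ∈ range ((Dl - p) / h), (pc I a pe (C (b0 j + (p + r * h)))
            - fc I a A (x p j r) (C (b0 j + (p + r * h) + h))) ≤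
          ∑ j ∈ S, ∑ r ∈ range ((Dl - p) / h),
            ((pc I a pe (C (b0 j + (p + r * h))) - c (b0 j + (p + r * h))) + δ) :=
        Finset.sum_le_sum fun j hj => Finset.sum_le_sum fun r hr => by
          have := hc p hp j hj r (Finset.mem_range.1 hr)
          linarith
      have h4 := hΦ0 p hp
      set X := ∑ j ∈ S, ∑ r ∈ range ((Dl - p) / h),
          ∑ i ∈ I.filter (fun i => C (b0 j) i (pe i) - C (b0 j + Dl) i (pe i) ≤ cap),
            a i * (C (b0 j + (p + r * h)) i (pe i) - C (b0 j + (p + r * h) + h) i (pe i))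
      set W := ∑ j ∈ S, ∑ r ∈ range ((Dl - p) / h), pc I a pe
            (fun i e => min (C (b0 j + (p + r * h)) i e - C (b0 j + (p + r * h) + h) i e) cap)
      set V := ∑ j ∈ S, ∑ r ∈ range ((Dl - p) / h), (pc I a pe (C (b0 j + (p + r * h)))
            - fc I a A (x p j r) (C (b0 j + (p + r * h) + h)))
      set U := ∑ j ∈ S, ∑ r ∈ range ((Dl - p) / h),
            ((pc I a pe (C (b0 j + (p + r * h))) - c (b0 j + (p + r * h))) + δ)
      have h5 : 2 / 3 * cap⁻¹ * X ≤ Φ0 + cap⁻¹ * U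
          + S.card * (((Dl - p) / h : ℕ) * (η + (- Real.log (1 - ε))) + (- Real.log (1 - ζ)))
          + (act \ S).card * (- Real.log ζ) := by
        have e1 := mul_le_mul_of_nonneg_left h2 (show 0 ≤ 2 / 3 * cap⁻¹ by positivity)
        have e2 := mul_le_mul_of_nonneg_left h3 hl.le
        linarith
      have h6 := mul_le_mul_of_nonneg_left h5 (show 0 ≤ 3 / 2 * cap by positivity)
      have e1 : 3 / 2 * cap * (2 / 3 * cap⁻¹ * X) = X := by
        field_simp
      have e2 : 3 / 2 * cap * (Φ0 + cap⁻¹ * U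
          + S.card * (((Dl - p) / h : ℕ) * (η + (- Real.log (1 - ε))) + (- Real.log (1 - ζ)))
          + (act \ S).card * (- Real.log ζ)) = 3 / 2 * U + 3 / 2 * cap * Φ0
          + S.card * (3 / 2 * cap * (((Dl - p) / h : ℕ) * (η + (- Real.log (1 - ε)))
            + (- Real.log (1 - ζ))))
          + (act \ S).card * (3 / 2 * cap * (- Real.log ζ)) := by
        field_simp
        ring
      rw [e1, e2] at h6
      exact h6
    · intro j _ r _ i hi e he
      refine le_min ?_ hcap.le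
      have h1 := hC i hi e he (show b0 j + (p + r * h) ≤ b0 j + (p + r * h) + h by omega)
      simp only at h1
      linarith
    · intro j _ r _ i _
      calc cap⁻¹ * min (C (b0 j + (p + r * h)) i (pe i) - C (b0 j + (p + r * h) + h) i (pe i)) cap
          ≤ cap⁻¹ * cap := mul_le_mul_of_nonneg_left (min_le_right _ _) hl.le
        _ = 1 := hlc
    · intro j _ r _ i _ e _
      exact min_le_left _ _
  have hsum := Finset.sum_le_sum fun p hp => hph p (Finset.mem_range.1 hp)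
  -- left-hand side
  have hL : ∑ p ∈ range h, ∑ j ∈ S, ∑ r ∈ range ((Dl - p) / h),
      ∑ i ∈ I.filter (fun i => C (b0 j) i (pe i) - C (b0 j + Dl) i (pe i) ≤ cap),
        a i * (C (b0 j + (p + r * h)) i (pe i) - C (b0 j + (p + r * h) + h) i (pe i)) =
      ∑ j ∈ S, ∑ β ∈ (range Dl).filter (fun β => β + h ≤ Dl),
        ∑ i ∈ I.filter (fun i => C (b0 j) i (pe i) - C (b0 j + Dl) i (pe i) ≤ cap),
          a i * (C (b0 j + β) i (pe i) - C (b0 j + β + h) i (pe i)) := by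
    rw [Finset.sum_comm]
    exact Finset.sum_congr rfl fun j _ => sum_phases h Dl hh (fun β =>
      ∑ i ∈ I.filter (fun i => C (b0 j) i (pe i) - C (b0 j + Dl) i (pe i) ≤ cap),
        a i * (C (b0 j + β) i (pe i) - C (b0 j + β + h) i (pe i)))
  have hR : ∑ p ∈ range h, ∑ j ∈ S, ∑ r ∈ range ((Dl - p) / h),
        ((pc I a pe (C (b0 j + (p + r * h))) - c (b0 j + (p + r * h))) + δ) ≤
      ∑ j ∈ S, ∑ β ∈ range Dl, (pc I a pe (C (b0 j + β)) - c (b0 j + β))
        + S.card * (Dl * δ) := by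
    rw [Finset.sum_comm]
    have : ∀ j ∈ S, ∑ p ∈ range h, ∑ r ∈ range ((Dl - p) / h),
        ((pc I a pe (C (b0 j + (p + r * h))) - c (b0 j + (p + r * h))) + δ) ≤
        ∑ β ∈ range Dl, (pc I a pe (C (b0 j + β)) - c (b0 j + β)) + Dl * δ := by
      intro j hj
      rw [sum_phases h Dl hh (fun β => (pc I a pe (C (b0 j + β)) - c (b0 j + β)) + δ)]
      have e1 : ∑ β ∈ (range Dl).filter (fun β => β + h ≤ Dl),
          ((pc I a pe (C (b0 j + β)) - c (b0 j + β)) + δ) ≤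
          ∑ β ∈ range Dl, ((pc I a pe (C (b0 j + β)) - c (b0 j + β)) + δ) :=
        Finset.sum_le_sum_of_subset_of_nonneg (Finset.filter_subset _ _) fun β hβ _ => by
          have := hG j hj β (Finset.mem_range.1 hβ)
          linarith
      rw [Finset.sum_add_distrib (s := range Dl)] at e1
      simpa using e1
    refine (Finset.sum_le_sum this).trans (le_of_eq ?_)
    rw [Finset.sum_add_distrib, Finset.sum_const, nsmul_eq_mul]
  rw [hL] at hsum
  refine hsum.trans ?_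
  rw [Finset.sum_add_distrib, Finset.sum_add_distrib, Finset.sum_add_distrib, ← Finset.mul_sum]
  have c0 := card_phases h Dl hh
  have c1 : ∑ p ∈ range h, (S.card : ℝ) * (3 / 2 * cap * (((Dl - p) / h : ℕ) *
      (η + (- Real.log (1 - ε))) + (- Real.log (1 - ζ)))) ≤
      S.card * (3 / 2 * cap * (Dl * (η + (- Real.log (1 - ε))) + h * (- Real.log (1 - ζ)))) := by
    rw [← Finset.mul_sum, ← Finset.mul_sum, Finset.sum_add_distrib, ← Finset.sum_mul,
      Finset.sum_const, card_range, nsmul_eq_mul]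
    push_cast at c0
    refine mul_le_mul_of_nonneg_left (mul_le_mul_of_nonneg_left (add_le_add_left
      (mul_le_mul_of_nonneg_right c0 (by linarith)) _) (by positivity)) (by positivity)
  have c2 : ∑ p ∈ range h, 3 / 2 * cap * Φ0 = 3 / 2 * cap * h * Φ0 := by
    rw [Finset.sum_const, card_range, nsmul_eq_mul]; ring
  have c3 : ∑ p ∈ range h, ((act \ S).card : ℝ) * (3 / 2 * cap * (- Real.log ζ)) =
      (act \ S).card * (3 / 2 * cap * h * (- Real.log ζ)) := by
    rw [Finset.sum_const, card_range, nsmul_eq_mul]; ring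
  rw [c2, c3]
  have c4 := mul_le_mul_of_nonneg_left hR (show (0 : ℝ) ≤ 3 / 2 by norm_num)
  have c5 : (S.card : ℝ) * (3 / 2 * (Dl * δ + cap * (Dl * (η + (- Real.log (1 - ε)))
          + h * (- Real.log (1 - ζ))))) = 3 / 2 * (S.card * (Dl * δ)) +
      S.card * (3 / 2 * cap * (Dl * (η + (- Real.log (1 - ε))) + h * (- Real.log (1 - ζ)))) := by
    ring
  rw [c5]
  rw [mul_add] at c4
  linarith

/-- The number of blocks over which a nonincreasing function drops by at least `θ`. -/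
theorem card_act {om : ℕ → ℝ} {θ t : ℝ} {Dl N o : ℕ} {act : Finset ℕ} (hθ : 0 < θ)
    (hom : Antitone om) (htot : om o - om (o + N * Dl) ≤ t) (hact : act ⊆ range N)
    (hm : ∀ j ∈ act, θ ≤ om (o + j * Dl) - om (o + (j + 1) * Dl)) :
    (act.card : ℝ) ≤ t / θ := by
  have h1 : ∑ j ∈ range N, (om (o + j * Dl) - om (o + (j + 1) * Dl)) =
      om o - om (o + N * Dl) := by
    rw [Finset.sum_range_sub' (fun j => om (o + j * Dl))]
    simp
  have h2 : ∑ j ∈ act, (om (o + j * Dl) - om (o + (j + 1) * Dl)) ≤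
      ∑ j ∈ range N, (om (o + j * Dl) - om (o + (j + 1) * Dl)) :=
    Finset.sum_le_sum_of_subset_of_nonneg hact fun j _ _ => by
      have := hom (show o + j * Dl ≤ o + (j + 1) * Dl from
        Nat.add_le_add_left (Nat.mul_le_mul_right _ (Nat.le_succ j)) _)
      linarith
  have h3 : (act.card : ℝ) * θ ≤ ∑ j ∈ act, (om (o + j * Dl) - om (o + (j + 1) * Dl)) := by
    have := Finset.card_nsmul_le_sum act _ θ hm
    rwa [nsmul_eq_mul] at this
  rw [le_div_iff₀ hθ]
  linarith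

/-- **(H3b)** in the form of part A: class `θ ≤ m(B) < 2 θ`, `cap = 2 C7 θ`, `L = 3 C7 log (1/ζ)`.
`om` = the visible optimum `W`, blocks `[o + j Dl, o + (j+1) Dl)`. -/
theorem H3b {I : Finset ι} {a : ι → ℝ} {A : ι → Finset E} {pe : ι → E}
    {C : ℕ → ι → E → ℝ} {c om : ℕ → ℝ} {x y : ℕ → ℕ → ℕ → ι → E → ℝ}
    {ys : ℕ → ℕ → ι → E → ℝ}
    {θ C7 η ε ζ δ Φ0 : ℝ} {h Dl N o : ℕ} {act S : Finset ℕ}
    (hθ : 0 < θ) (hC7 : 0 < C7) (hh : 0 < h) (hη : 0 ≤ η) (hδ : 0 ≤ δ) (hε0 : 0 ≤ ε)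
    (hε : ε < 1) (hζ0 : 0 < ζ) (hζ1 : ζ < 1) (hS : S ⊆ act) (hact : act ⊆ range N)
    (hom : Antitone om) (htot : om o - om (o + N * Dl) ≤ 1)
    (hcl : ∀ j ∈ act, θ ≤ om (o + j * Dl) - om (o + (j + 1) * Dl) ∧
      om (o + j * Dl) - om (o + (j + 1) * Dl) < 2 * θ)
    (ha : ∀ i ∈ I, 0 ≤ a i) (ha1 : ∑ i ∈ I, a i = 1) (hpe : ∀ i ∈ I, pe i ∈ A i)
    (hC : ∀ i ∈ I, ∀ e ∈ A i, Antitone fun k => C k i e)
    (hx : ∀ p < h, ∀ j ∈ S, ∀ r < (Dl - p) / h, ∀ i ∈ I, ∀ e ∈ A i, 0 ≤ x p j r i e)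
    (hxp : ∀ p < h, ∀ j ∈ S, ∀ r < (Dl - p) / h, ∀ i ∈ I, 0 < x p j r i (pe i))
    (hy' : ∀ p < h, ∀ j ∈ S, ∀ r < (Dl - p) / h, ∀ i ∈ I,
      (1 - ε) * (x p j r i (pe i) *
        (1 + (2 * C7 * θ)⁻¹ * min (C (o + j * Dl + (p + r * h)) i (pe i)
          - C (o + j * Dl + (p + r * h) + h) i (pe i)) (2 * C7 * θ)) /
        (1 + (2 * C7 * θ)⁻¹ * ∑ f ∈ A i, x p j r i f *
          min (C (o + j * Dl + (p + r * h)) i f - C (o + j * Dl + (p + r * h) + h) i f)
            (2 * C7 * θ))) ≤ y p j (r + 1) i (pe i))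
    (htp : ∀ p < h, ∀ j ∈ S, ∀ r < (Dl - p) / h, pot I a pe (x p j r) ≤
      pot I a pe (y p j r) + (2 * C7 * θ)⁻¹ * (pc I a pe (C (o + j * Dl + (p + r * h)))
        - fc I a A (x p j r) (C (o + j * Dl + (p + r * h)))) + η)
    (hy0 : ∀ p < h, ∀ j ∈ S, ∀ i ∈ I, y p j 0 i (pe i) = ys p j i (pe i))
    (hyn : ∀ p < h, ∀ j ∈ S, ∀ i ∈ I, 0 < y p j ((Dl - p) / h) i (pe i))
    (hys : ∀ p < h, ∀ j ≤ N, ∀ i ∈ I, 0 < ys p j i (pe i))
    (hys1 : ∀ p < h, ∀ i ∈ I, ys p N i (pe i) ≤ 1)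
    (hmixe : ∀ p < h, ∀ j ∈ S, ∀ i ∈ I,
      (1 - ζ) * y p j ((Dl - p) / h) i (pe i) ≤ ys p (j + 1) i (pe i))
    (hmixs : ∀ p < h, ∀ j ∈ act, ∀ i ∈ I, ζ * ys p j i (pe i) ≤ ys p (j + 1) i (pe i))
    (hidle : ∀ p < h, ∀ j < N, j ∉ act → ∀ i ∈ I, ys p (j + 1) i (pe i) = ys p j i (pe i))
    (hΦ0 : ∀ p < h, pot I a pe (ys p 0) ≤ Φ0)
    (hG : ∀ j ∈ S, ∀ β < Dl, c (o + j * Dl + β) ≤ pc I a pe (C (o + j * Dl + β)))
    (hc : ∀ p < h, ∀ j ∈ S, ∀ r < (Dl - p) / h,
      c (o + j * Dl + (p + r * h)) ≤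
        fc I a A (x p j r) (C (o + j * Dl + (p + r * h) + h)) + δ) :
    ∑ j ∈ S, ∑ β ∈ (range Dl).filter (fun β => β + h ≤ Dl),
      ∑ i ∈ I.filter (fun i => C (o + j * Dl) i (pe i) - C (o + (j + 1) * Dl) i (pe i) ≤
        C7 * (om (o + j * Dl) - om (o + (j + 1) * Dl))),
        a i * (C (o + j * Dl + β) i (pe i) - C (o + j * Dl + β + h) i (pe i)) ≤
      3 / 2 * ∑ j ∈ S, ∑ β ∈ range Dl, (pc I a pe (C (o + j * Dl + β)) - c (o + j * Dl + β))
        + ∑ j ∈ act \ S, h * (3 * C7 * (- Real.log ζ)) *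
            (om (o + j * Dl) - om (o + (j + 1) * Dl))
        + (3 * C7 * θ * h * Φ0 + θ⁻¹ * (3 / 2 * (Dl * δ + 2 * C7 * θ *
            (Dl * (η + (- Real.log (1 - ε))) + h * (- Real.log (1 - ζ)))))) := by
  classical
  have hcap : 0 < 2 * C7 * θ := by positivity
  have hlε : 0 ≤ - Real.log (1 - ε) := neg_nonneg.2 (Real.log_nonpos (by linarith) (by linarith))
  have hlζ : 0 ≤ - Real.log (1 - ζ) := neg_nonneg.2 (Real.log_nonpos (by linarith) (by linarith))
  have hlζ' : 0 ≤ - Real.log ζ := neg_nonneg.2 (Real.log_nonpos hζ0.le hζ1.le)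
  have h0 := h3b (I := I) (a := a) (A := A) (pe := pe) (C := C) (c := c) (x := x) (y := y)
    (ys := ys) (cap := 2 * C7 * θ) (η := η) (ε := ε) (ζ := ζ) (δ := δ) (Φ0 := Φ0) (h := h)
    (Dl := Dl) (N := N) (b0 := fun j => o + j * Dl) (act := act) (S := S) hcap hh hη hδ hε0 hε
    hζ0 hζ1 hS hact ha ha1 hpe hC hx hxp hy' htp hy0 hyn hys hys1 hmixe hmixs hidle hΦ0 hG hc
  have hstep : ∀ j, o + (j + 1) * Dl = o + j * Dl + Dl := fun j => by ring
  have hL : ∑ j ∈ S, ∑ β ∈ (range Dl).filter (fun β => β + h ≤ Dl),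
      ∑ i ∈ I.filter (fun i => C (o + j * Dl) i (pe i) - C (o + (j + 1) * Dl) i (pe i) ≤
        C7 * (om (o + j * Dl) - om (o + (j + 1) * Dl))),
        a i * (C (o + j * Dl + β) i (pe i) - C (o + j * Dl + β + h) i (pe i)) ≤
      ∑ j ∈ S, ∑ β ∈ (range Dl).filter (fun β => β + h ≤ Dl),
      ∑ i ∈ I.filter (fun i => C (o + j * Dl) i (pe i) - C (o + j * Dl + Dl) i (pe i) ≤
        2 * C7 * θ),
        a i * (C (o + j * Dl + β) i (pe i) - C (o + j * Dl + β + h) i (pe i)) := by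
    refine Finset.sum_le_sum fun j hj => Finset.sum_le_sum fun β _ =>
      Finset.sum_le_sum_of_subset_of_nonneg ?_ ?_
    · intro i hi
      simp only [mem_filter] at hi ⊢
      refine ⟨hi.1, ?_⟩
      have h1 := (hcl j (hS hj)).2
      have h2 := hi.2
      rw [hstep j] at h2 h1
      have h3 : C7 * (om (o + j * Dl) - om (o + j * Dl + Dl)) ≤ C7 * (2 * θ) :=
        mul_le_mul_of_nonneg_left h1.le hC7.le
      linarith
    · intro i hi _
      have hi := (Finset.mem_filter.1 hi).1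
      have h1 := hC i hi _ (hpe i hi)
        (show o + j * Dl + β ≤ o + j * Dl + β + h by omega)
      simp only at h1
      exact mul_nonneg (ha i hi) (by linarith)
  refine hL.trans (h0.trans ?_)
  have hcS : (S.card : ℝ) ≤ θ⁻¹ := by
    have h1 := card_act (om := om) (θ := θ) (t := 1) (Dl := Dl) (N := N) (o := o) (act := act)
      hθ hom htot hact (fun j hj => (hcl j hj).1)
    have h2 : (S.card : ℝ) ≤ act.card := by exact_mod_cast Finset.card_le_card hS
    rw [one_div] at h1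
    linarith
  have hR : ((act \ S).card : ℝ) * (3 / 2 * (2 * C7 * θ) * h * (- Real.log ζ)) ≤
      ∑ j ∈ act \ S, h * (3 * C7 * (- Real.log ζ)) *
            (om (o + j * Dl) - om (o + (j + 1) * Dl)) := by
    have h1 : ∀ j ∈ act \ S, h * (3 * C7 * (- Real.log ζ)) * θ ≤
        h * (3 * C7 * (- Real.log ζ)) * (om (o + j * Dl) - om (o + (j + 1) * Dl)) :=
      fun j hj => mul_le_mul_of_nonneg_left (hcl j (Finset.mem_sdiff.1 hj).1).1
        (by positivity)
    have h2 := Finset.card_nsmul_le_sum (act \ S) _ _ h1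
    rw [nsmul_eq_mul] at h2
    linarith
  have hK : 0 ≤ 3 / 2 * (Dl * δ + 2 * C7 * θ *
            (Dl * (η + (- Real.log (1 - ε))) + h * (- Real.log (1 - ζ)))) := by positivity
  have h4 := mul_le_mul_of_nonneg_right hcS hK
  have h5 : 3 / 2 * (2 * C7 * θ) * h * Φ0 = 3 * C7 * θ * h * Φ0 := by ring
  rw [h5]
  linarith

end Vale.Agent.P315.H855
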