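import Vale.Agent.P315.H679.AccDefs

/-! The uniform tree: leaves `Fin (M ^ n)`, ancestor of `x` at level `j` = `x / M ^ j`. -/

set_option autoImplicit false

open Finset

namespace Vale.Agent.P315.H855

open Vale.Agent.P315.Acc

/-- The numbers below `N` in the interval `[t K, (t+1) K)`. -/
theorem sum_fib {N K t : ℕ} (hK : 0 < K) (h : (t + 1) * K ≤ N) (g : ℕ → ℝ) :
    ∑ y ∈ (univ : Finset (Fin N)).filter (fun y => y.val / K = t), g y.val =
      ∑ u ∈ range K, g (t * K + u) := by
  refine Finset.sum_bij' (fun y _ => y.val % K) (fun u hu => ⟨t * K + u, ?_⟩) ?_ ?_ ?_ ?_ ?_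
  · have := Finset.mem_range.1 hu
    have h2 : (t + 1) * K = t * K + K := by ring
    omega
  · intro y _
    exact Finset.mem_range.2 (Nat.mod_lt _ hK)
  · intro u hu
    simp only [mem_filter, mem_univ, true_and]
    have hu := Finset.mem_range.1 hu
    rw [Nat.mul_comm, Nat.mul_add_div hK, Nat.div_eq_of_lt hu, add_zero]
  · intro y hy
    simp only [mem_filter, mem_univ, true_and] at hy
    apply Fin.ext
    show t * K + y.val % K = y.val
    have := Nat.div_add_mod y.val K
    rw [hy, mul_comm] at this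
    exact this
  · intro u hu
    have hu := Finset.mem_range.1 hu
    show (t * K + u) % K = u
    rw [Nat.mul_comm, Nat.mul_add_mod, Nat.mod_eq_of_lt hu]
  · intro y hy
    simp only [mem_filter, mem_univ, true_and] at hy
    have := Nat.div_add_mod y.val K
    rw [hy, mul_comm] at this
    show g y.val = g (t * K + y.val % K)
    rw [this]

/-- Sum over `A K` consecutive numbers of a function of the quotient by `K`. -/
theorem sum_quot {A K : ℕ} (hK : 0 < K) (t : ℕ) (F : ℕ → ℝ) :
    ∑ u ∈ range (A * K), F ((t * (A * K) + u) / K) = K * ∑ m ∈ range A, F (t * A + m) := by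
  have key : ∀ (B s : ℕ), ∑ u ∈ range (B * K), F ((s * K + u) / K) =
      K * ∑ m ∈ range B, F (s + m) := by
    intro B s
    induction B with
    | zero => simp
    | succ B ihB =>
      rw [Nat.succ_mul, Finset.sum_range_add, ihB, Finset.sum_range_succ, mul_add]
      congr 1
      have : ∀ v ∈ range K, F ((s * K + (B * K + v)) / K) = F (s + B) := by
        intro v hv
        have hv := Finset.mem_range.1 hv
        congr 1
        have e1 : s * K + (B * K + v) = K * (s + B) + v := by ring
        rw [e1, Nat.mul_add_div hK, Nat.div_eq_of_lt hv, add_zero]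
      rw [Finset.sum_congr rfl this, Finset.sum_const, card_range, nsmul_eq_mul]
  rw [← key A (t * A)]
  exact Finset.sum_congr rfl fun u _ => by rw [mul_assoc]

/-- **Average over the descendants at level `j` of the node of level `j + d`.** -/
theorem uni_avg {M n j d : ℕ} (hM : 0 < M) (hjd : j + d ≤ n) (F : ℕ → ℝ) (x : Fin (M ^ n)) :
    avg (fun _ => (1 : ℝ)) (fun j (x : Fin (M ^ n)) => x.val / M ^ j) (j + d)
      (fun y => F (y.val / M ^ j)) x =
    (∑ m ∈ range (M ^ d), F (x.val / M ^ (j + d) * M ^ d + m)) / (M ^ d : ℕ) := by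
  have hKj : 0 < M ^ j := Nat.pow_pos hM
  have hK : 0 < M ^ (j + d) := Nat.pow_pos hM
  have hKd : 0 < M ^ d := Nat.pow_pos hM
  have hle : (x.val / M ^ (j + d) + 1) * M ^ (j + d) ≤ M ^ n := by
    have h1 : M ^ n = M ^ (n - (j + d)) * M ^ (j + d) := by
      rw [← pow_add]; congr 1; omega
    have h2 : x.val / M ^ (j + d) < M ^ (n - (j + d)) := by
      rw [Nat.div_lt_iff_lt_mul hK, ← h1]
      exact x.isLt
    calc (x.val / M ^ (j + d) + 1) * M ^ (j + d) ≤ M ^ (n - (j + d)) * M ^ (j + d) :=
          Nat.mul_le_mul_right _ h2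
      _ = M ^ n := h1.symm
  unfold avg
  simp only [one_mul]
  rw [sum_fib hK hle (fun y => F (y / M ^ j)), sum_fib hK hle (fun _ => (1 : ℝ))]
  rw [Finset.sum_const, card_range, nsmul_eq_mul, mul_one]
  have e1 : M ^ (j + d) = M ^ d * M ^ j := by rw [pow_add]; ring
  have h3 := sum_quot (A := M ^ d) hKj (x.val / M ^ (j + d)) F
  rw [← e1] at h3
  rw [h3, e1]
  have hKj' : ((M ^ j : ℕ) : ℝ) ≠ 0 := by exact_mod_cast hKj.ne'
  have hKd' : ((M ^ d : ℕ) : ℝ) ≠ 0 := by exact_mod_cast hKd.ne'
  push_cast at hKj' hKd' ⊢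
  field_simp

end Vale.Agent.P315.H855
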